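import Mathlib

open Set Filter Topology

namespace Vale.Agent.P252

lemma nonpos_of_deriv {g g' : ℝ → ℝ} {R : ℝ} (hc : Continuous g) (h0 : g 0 ≤ 0)
    (hd : ∀ r ∈ Ioo 0 R, HasDerivAt g (g' r) r) (hneg : ∀ r ∈ Ioo 0 R, 0 < g r → g' r ≤ 0) :
    ∀ r ∈ Icc 0 R, g r ≤ 0 := by
  intro r1 hr1
  by_contra hcon
  push Not at hcon
  have hcl : IsCompact (Icc 0 r1 ∩ {r | g r ≤ 0}) :=
    isCompact_Icc.inter_right (isClosed_le hc continuous_const)
  have hne : (Icc 0 r1 ∩ {r | g r ≤ 0}).Nonempty := ⟨0, ⟨le_rfl, hr1.1⟩, h0⟩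
  set r0 := sSup (Icc 0 r1 ∩ {r | g r ≤ 0}) with hr0
  have hmem : r0 ∈ Icc 0 r1 ∩ {r | g r ≤ 0} := hcl.sSup_mem hne
  have hlt : r0 < r1 := by
    rcases lt_or_eq_of_le hmem.1.2 with h | h
    · exact h
    · exfalso
      have h2 : g r0 ≤ 0 := hmem.2
      rw [h] at h2
      linarith
  have hpos : ∀ r ∈ Ioo r0 r1, 0 < g r := by
    intro r hr
    by_contra hcon2
    push Not at hcon2
    have : r ∈ Icc 0 r1 ∩ {r | g r ≤ 0} := ⟨⟨le_trans hmem.1.1 hr.1.le, hr.2.le⟩, hcon2⟩
    have := le_csSup hcl.bddAbove this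
    linarith [hr.1]
  have hanti : AntitoneOn g (Icc r0 r1) := by
    apply antitoneOn_of_deriv_nonpos (convex_Icc _ _) hc.continuousOn
    · intro r hr
      rw [interior_Icc] at hr
      exact (hd r ⟨lt_of_le_of_lt hmem.1.1 hr.1,
        lt_of_lt_of_le hr.2 hr1.2⟩).differentiableAt.differentiableWithinAt
    · intro r hr
      rw [interior_Icc] at hr
      have hr' : r ∈ Ioo 0 R := ⟨lt_of_le_of_lt hmem.1.1 hr.1, lt_of_lt_of_le hr.2 hr1.2⟩
      rw [(hd r hr').deriv]
      exact hneg r hr' (hpos r hr)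
  have := hanti (left_mem_Icc.2 hlt.le) (right_mem_Icc.2 hlt.le) hlt.le
  have h2 : g r0 ≤ 0 := hmem.2
  linarith

lemma nonneg_on_Icc {g : ℝ → ℝ} {R : ℝ} (hc : Continuous g) (hR : 0 < R)
    (h : ∀ r ∈ Ico 0 R, 0 ≤ g r) : ∀ r ∈ Icc 0 R, 0 ≤ g r := by
  have h1 : closure (Ico 0 R) ⊆ {r | 0 ≤ g r} :=
    closure_minimal h (isClosed_le continuous_const hc)
  rw [closure_Ico hR.ne] at h1
  exact h1

/-- the quantity whose nonpositivity is the upper barrier -/
noncomputable def Dl (k X Y : ℝ) : ℝ := Y * (k^2 - 6*X) - (k^2 + (2*k-3)*X + 2*X^2)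

theorem apriori {k R : ℝ} (hk : 9 ≤ k) {Q Y a : ℝ → ℝ}
    (hQc : Continuous Q) (hYc : Continuous Y) (hac : Continuous a)
    (hQpos : ∀ r, 0 < Q r) (hYpos : ∀ r, 0 < Y r) (hQ0 : Q 0 = 1) (hY0 : Y 0 = 1)
    (hQd : ∀ r ∈ Ioo 0 R, HasDerivAt Q (Q r * (Y r - 1 - r * Q r) / (2 * r)) r)
    (hYd : ∀ r ∈ Ioo 0 R,
      HasDerivAt Y (-(Y r * Dl k (r * Q r) (Y r)) / (2 * r * (k + 2 * (r * Q r)))) r)
    (had : ∀ r ∈ Ioo 0 R, HasDerivAt a (Q r / 2) r) :
    ∀ r ∈ Icc 0 R, Q r ≤ 1 ∧ Y r ≤ 7/2 := by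
  -- notation
  let X : ℝ → ℝ := fun r => r * Q r
  let E : ℝ → ℝ := fun r => 1 + Y r - X r
  let D : ℝ → ℝ := fun r => Dl k (X r) (Y r)
  have hXc : Continuous X := continuous_id.mul hQc
  have hEc : Continuous E := (continuous_const.add hYc).sub hXc
  have hDc : Continuous D := by
    show Continuous fun r => Y r * (k^2 - 6 * X r) - (k^2 + (2*k-3) * X r + 2 * (X r)^2)
    fun_prop
  have hX0 : X 0 = 0 := by simp [X]
  have hE0 : E 0 = 2 := by simp only [E, hX0, hY0]; norm_num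
  have hD0 : D 0 = 0 := by simp only [D, Dl, hX0, hY0]; ring
  have hXnn : ∀ r, 0 ≤ r → 0 ≤ X r := fun r hr => mul_nonneg hr (hQpos r).le
  have hXd : ∀ r ∈ Ioo 0 R, HasDerivAt X (Q r * E r / 2) r := by
    intro r hr
    have h1 := (hasDerivAt_id r).mul (hQd r hr)
    refine h1.congr_deriv ?_
    have hr0 : r ≠ 0 := hr.1.ne'
    simp only [E, X, id]
    field_simp
    ring
  -- Y' formula
  set Y' : ℝ → ℝ := fun r => -(Y r * D r) / (2 * r * (k + 2 * X r)) with hY'
  have hYd' : ∀ r ∈ Ioo 0 R, HasDerivAt Y (Y' r) r := hYd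
  have hDd : ∀ r ∈ Ioo 0 R, HasDerivAt D
      (Y' r * (k^2 - 6 * X r) - (6 * Y r + (2*k-3) + 4 * X r) * (Q r * E r / 2)) r := by
    intro r hr
    have hX := hXd r hr
    have hY := hYd' r hr
    have h1 := hY.mul ((hX.const_mul 6).const_sub (k^2))
    have h2 := ((hX.const_mul (2*k-3)).const_add (k^2)).add ((hX.pow 2).const_mul 2)
    have h3 := h1.sub h2
    refine h3.congr_deriv ?_
    simp only [Nat.cast_ofNat, Nat.add_one_sub_one, pow_one]
    ring
  -- upper barrier on subintervals where E ≥ 0 and X ≤ k/2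
  have hbar : ∀ S ≤ R, (∀ r ∈ Icc 0 S, 0 ≤ E r ∧ X r ≤ k/2) → ∀ r ∈ Icc 0 S, D r ≤ 0 := by
    intro S hS hgood
    apply nonpos_of_deriv hDc hD0.le (g' := fun r =>
      Y' r * (k^2 - 6 * X r) - (6 * Y r + (2*k-3) + 4 * X r) * (Q r * E r / 2))
    · intro r hr
      exact hDd r ⟨hr.1, lt_of_lt_of_le hr.2 hS⟩
    · intro r hr hDpos
      have hg := hgood r ⟨hr.1.le, hr.2.le⟩
      have hXr := hXnn r hr.1.le
      have hYr := hYpos r
      have hQr := hQpos r
      have hr0 : 0 < r := hr.1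
      have hY'neg : Y' r ≤ 0 := by
        simp only [Y']
        apply div_nonpos_of_nonpos_of_nonneg
        · have := mul_pos hYr hDpos
          linarith
        · positivity
      have h1 : 0 ≤ k^2 - 6 * X r := by nlinarith [hg.2]
      have h2 : Y' r * (k^2 - 6 * X r) ≤ 0 := mul_nonpos_of_nonpos_of_nonneg hY'neg h1
      have h3 : 0 ≤ (6 * Y r + (2*k-3) + 4 * X r) * (Q r * E r / 2) := by
        apply mul_nonneg
        · linarith
        · have := mul_nonneg hQr.le hg.1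
          linarith
      linarith
  -- E e^a is nondecreasing where D ≤ 0
  have hEpos : ∀ S ≤ R, 0 ≤ S → (∀ r ∈ Icc 0 S, D r ≤ 0) → 0 < E S := by
    intro S hS hS0 hDS
    have hmono : MonotoneOn (fun r => E r * Real.exp (a r)) (Icc 0 S) := by
      apply monotoneOn_of_deriv_nonneg (convex_Icc _ _)
      · exact (hEc.mul (Real.continuous_exp.comp hac)).continuousOn
      · intro r hr
        rw [interior_Icc] at hr
        have hr' : r ∈ Ioo 0 R := ⟨hr.1, lt_of_lt_of_le hr.2 hS⟩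
        have hE : HasDerivAt E (Y' r - Q r * E r / 2) r :=
          ((hYd' r hr').const_add 1).sub (hXd r hr')
        exact (hE.mul (had r hr').exp).differentiableAt.differentiableWithinAt
      · intro r hr
        rw [interior_Icc] at hr
        have hr' : r ∈ Ioo 0 R := ⟨hr.1, lt_of_lt_of_le hr.2 hS⟩
        have hE : HasDerivAt E (Y' r - Q r * E r / 2) r :=
          ((hYd' r hr').const_add 1).sub (hXd r hr')
        have hder := (hE.mul (had r hr').exp).deriv
        have e : deriv (fun r => E r * Real.exp (a r)) r =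
          (Y' r - Q r * E r / 2) * Real.exp (a r) + E r * (Real.exp (a r) * (Q r / 2)) := hder
        rw [e]
        have hY'nn : 0 ≤ Y' r := by
          simp only [Y']
          have hXr := hXnn r hr.1.le
          have hYr := hYpos r
          have hr0 : 0 < r := hr.1
          apply div_nonneg
          · have := mul_nonpos_of_nonneg_of_nonpos hYr.le (hDS r ⟨hr.1.le, hr.2.le⟩)
            linarith
          · positivity
        have : (Y' r - Q r * E r / 2) * Real.exp (a r) + E r * (Real.exp (a r) * (Q r / 2)) =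
          Y' r * Real.exp (a r) := by ring
        rw [this]
        positivity
    have h1 := hmono (left_mem_Icc.2 hS0) (right_mem_Icc.2 hS0) hS0
    simp only [hE0] at h1
    have h2 : 0 < 2 * Real.exp (a 0) := by positivity
    have h3 : 0 < E S * Real.exp (a S) := lt_of_lt_of_le h2 h1
    exact (pos_iff_pos_of_mul_pos h3).2 (Real.exp_pos _)
  -- main continuation argument
  have hmain : ∀ r ∈ Icc 0 R, 0 < E r ∧ X r < k/2 := by
    by_contra hcon
    push Not at hcon
    obtain ⟨r1, hr1, hbad⟩ := hcon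
    have hBcl : IsCompact (Icc 0 r1 ∩ ({r | E r ≤ 0} ∪ {r | k/2 ≤ X r})) :=
      isCompact_Icc.inter_right ((isClosed_le hEc continuous_const).union
        (isClosed_le continuous_const hXc))
    have hne : (Icc 0 r1 ∩ ({r | E r ≤ 0} ∪ {r | k/2 ≤ X r})).Nonempty := by
      refine ⟨r1, ⟨hr1.1, le_rfl⟩, ?_⟩
      rcases le_or_gt (E r1) 0 with h | h
      · exact Or.inl h
      · exact Or.inr (hbad h)
    set rs := sInf (Icc 0 r1 ∩ ({r | E r ≤ 0} ∪ {r | k/2 ≤ X r})) with hrs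
    have hmem : rs ∈ Icc 0 r1 ∩ ({r | E r ≤ 0} ∪ {r | k/2 ≤ X r}) := hBcl.sInf_mem hne
    have hrs0 : 0 < rs := by
      rcases lt_or_eq_of_le hmem.1.1 with h | h
      · exact h
      · exfalso
        rcases hmem.2 with h2 | h2
        · have h3 : E rs ≤ 0 := h2
          rw [← h, hE0] at h3
          linarith
        · have h3 : k/2 ≤ X rs := h2
          rw [← h, hX0] at h3
          linarith
    have hbelow : ∀ r ∈ Ico 0 rs, 0 < E r ∧ X r < k/2 := by
      intro r hr
      by_contra hc2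
      have hrm : r ∈ Icc 0 r1 ∩ ({r | E r ≤ 0} ∪ {r | k/2 ≤ X r}) := by
        refine ⟨⟨hr.1, le_trans hr.2.le hmem.1.2⟩, ?_⟩
        rcases le_or_gt (E r) 0 with h | h
        · exact Or.inl h
        · right
          by_contra h4
          exact hc2 ⟨h, not_le.1 h4⟩
      have := csInf_le hBcl.bddBelow hrm
      linarith [hr.2]
    have hrsR : rs ≤ R := le_trans hmem.1.2 hr1.2
    have hE' := nonneg_on_Icc hEc hrs0 (fun r hr => (hbelow r hr).1.le)
    have hX' := nonneg_on_Icc (g := fun r => k/2 - X r) (continuous_const.sub hXc) hrs0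
      (fun r hr => by have := (hbelow r hr).2; linarith)
    have hDrs := hbar rs hrsR (fun r hr => ⟨hE' r hr, by have := hX' r hr; linarith⟩)
    have hErs := hEpos rs hrsR hrs0.le hDrs
    rcases hmem.2 with h | h
    · have h3 : E rs ≤ 0 := h
      linarith
    · have h3 : k/2 ≤ X rs := h
      have h4 : X rs = k/2 := le_antisymm (by have := hX' rs ⟨hrs0.le, le_rfl⟩; linarith) h3
      have h5 : D rs ≤ 0 := hDrs rs ⟨hrs0.le, le_rfl⟩
      have h6 : 0 < 1 + Y rs - X rs := hErs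
      have h7 : Y rs * (k^2 - 6 * X rs) - (k^2 + (2*k-3) * X rs + 2 * (X rs)^2) ≤ 0 := h5
      rw [h4] at h6 h7
      have h8 : 0 < k^2 - 6 * (k/2) := by nlinarith
      have h9 : (k/2 - 1) * (k^2 - 6 * (k/2)) < Y rs * (k^2 - 6 * (k/2)) := by
        apply mul_lt_mul_of_pos_right _ h8
        linarith
      nlinarith [mul_nonneg (by linarith : (0:ℝ) ≤ k - 9) (by linarith : (0:ℝ) ≤ k - 1),
        mul_nonneg (mul_nonneg (by linarith : (0:ℝ) ≤ k - 9) (by linarith : (0:ℝ) ≤ k - 1))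
          (by linarith : (0:ℝ) ≤ k)]
  have hDall : ∀ r ∈ Icc 0 R, D r ≤ 0 := by
    intro r hr
    exact hbar R le_rfl (fun r hr => ⟨(hmain r hr).1.le, (hmain r hr).2.le⟩) r hr
  have hYle : ∀ r ∈ Icc 0 R, Y r ≤ 7/2 := by
    intro r hr
    have h1 : Y r * (k^2 - 6 * X r) - (k^2 + (2*k-3) * X r + 2 * (X r)^2) ≤ 0 := hDall r hr
    have h2 := (hmain r hr).2
    have h3 := hXnn r hr.1
    by_contra hcon
    push Not at hcon
    have h4 : 0 < k^2 - 6 * X r := by nlinarith
    have h5 : 7/2 * (k^2 - 6 * X r) < Y r * (k^2 - 6 * X r) := mul_lt_mul_of_pos_right hcon h4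
    nlinarith
  have hY1 : ∀ r ∈ Icc 0 R, Y r - 1 ≤ X r := by
    intro r hr
    have h1 : Y r * (k^2 - 6 * X r) - (k^2 + (2*k-3) * X r + 2 * (X r)^2) ≤ 0 := hDall r hr
    have h2 := (hmain r hr).2
    have h3 := hXnn r hr.1
    by_contra hcon
    push Not at hcon
    have h4 : 0 < k^2 - 6 * X r := by nlinarith
    have h5 : (X r + 1) * (k^2 - 6 * X r) < Y r * (k^2 - 6 * X r) :=
      mul_lt_mul_of_pos_right (by linarith) h4
    have h6 : X r * (k^2 - 8 * X r - 2 * k - 3) < 0 := by nlinarith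
    have h7 : 0 ≤ k^2 - 8 * X r - 2 * k - 3 := by nlinarith
    nlinarith [mul_nonneg h3 h7]
  intro r hr
  refine ⟨?_, hYle r hr⟩
  have hanti : AntitoneOn Q (Icc 0 R) := by
    apply antitoneOn_of_deriv_nonpos (convex_Icc _ _) hQc.continuousOn
    · intro r hr
      rw [interior_Icc] at hr
      exact (hQd r hr).differentiableAt.differentiableWithinAt
    · intro r hr
      rw [interior_Icc] at hr
      rw [(hQd r hr).deriv]
      have h1 := hY1 r ⟨hr.1.le, hr.2.le⟩
      have h2 := hQpos r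
      have hr0 : 0 < r := hr.1
      apply div_nonpos_of_nonpos_of_nonneg
      · apply mul_nonpos_of_nonneg_of_nonpos h2.le
        show Y r - 1 - r * Q r ≤ 0
        have h3 : Y r - 1 ≤ r * Q r := h1
        linarith
      · linarith
  have := hanti (left_mem_Icc.2 (le_trans hr.1 hr.2)) hr hr.1
  rw [hQ0] at this
  exact this

end Vale.Agent.P252
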