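import Mathlib

open MeasureTheory Set Filter Topology intervalIntegral

namespace Vale.Agent.P252

noncomputable def avg (j : ℕ) (h : ℝ → ℝ) (r : ℝ) : ℝ :=
  ∫ s in (0:ℝ)..1, s ^ j * h (r * s ^ 2)

lemma avg_continuous (j : ℕ) {h : ℝ → ℝ} (hh : Continuous h) : Continuous (avg j h) := by
  unfold avg
  apply intervalIntegral.continuous_parametric_intervalIntegral_of_continuous'
  fun_prop

lemma avg_hasDerivAt (j : ℕ) {h h' : ℝ → ℝ} (hd : ∀ x, HasDerivAt h (h' x) x)
    (hc : Continuous h') (r : ℝ) :
    HasDerivAt (avg j h) (avg (j+2) h' r) r := by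
  have hcont : Continuous h := continuous_iff_continuousAt.2 fun x => (hd x).continuousAt
  obtain ⟨C, hC⟩ := (isCompact_Icc (a := -(|r|+1)) (b := |r|+1)).exists_bound_of_continuousOn
    hc.continuousOn
  have key := intervalIntegral.hasDerivAt_integral_of_dominated_loc_of_deriv_le
    (μ := volume) (a := 0) (b := 1)
    (F := fun r s => s^j * h (r*s^2)) (F' := fun r s => s^(j+2) * h' (r*s^2)) (x₀ := r)
    (s := Metric.ball r 1) (bound := fun _ => C)
    (Metric.ball_mem_nhds r one_pos) ?_ ?_ ?_ ?_ ?_ ?_
  · exact key.2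
  · refine Filter.Eventually.of_forall fun x => ?_
    exact (by fun_prop : Continuous fun s => s^j * h (x*s^2)).aestronglyMeasurable
  · exact (by fun_prop : Continuous fun s => s^j * h (r*s^2)).intervalIntegrable _ _
  · exact (by fun_prop : Continuous fun s => s^(j+2) * h' (r*s^2)).aestronglyMeasurable
  · refine Filter.Eventually.of_forall fun s hs x hx => ?_
    rw [uIoc_of_le zero_le_one] at hs
    have hs0 : 0 ≤ s := hs.1.le
    have hs1 : s ≤ 1 := hs.2
    have hx' : |x| ≤ |r| + 1 := by
      have h1 : |x - r| < 1 := by simpa [Metric.mem_ball, Real.dist_eq] using hx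
      have h2 : |x| ≤ |x - r| + |r| := by
        simpa using abs_add_le (x - r) r
      linarith
    have hmem : x * s^2 ∈ Icc (-(|r|+1)) (|r|+1) := by
      rw [mem_Icc, ← abs_le, abs_mul, abs_of_nonneg (by positivity : (0:ℝ) ≤ s^2)]
      calc |x| * s^2 ≤ |x| * 1 := by
            apply mul_le_mul_of_nonneg_left _ (abs_nonneg x)
            nlinarith
        _ ≤ |r| + 1 := by linarith
    have hb := hC _ hmem
    rw [norm_mul]
    have hsj : ‖s^(j+2)‖ ≤ 1 := by
      rw [Real.norm_eq_abs, abs_of_nonneg (by positivity)]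
      exact pow_le_one₀ hs0 hs1
    calc ‖s^(j+2)‖ * ‖h' (x*s^2)‖ ≤ 1 * ‖h' (x*s^2)‖ := by gcongr
      _ ≤ C := by simpa using hb
  · exact intervalIntegrable_const
  · refine Filter.Eventually.of_forall fun s _ x _ => ?_
    have h1 : HasDerivAt (fun x : ℝ => x * s^2) (s^2) x := by
      simpa using (hasDerivAt_id x).mul_const (s^2)
    have h2 := (hd (x * s^2)).comp x h1
    have h3 := h2.const_mul (s^j)
    exact h3.congr_deriv (by ring)

lemma avg_deriv (j : ℕ) {h : ℝ → ℝ} (hh : ContDiff ℝ 1 h) :
    deriv (avg j h) = avg (j+2) (deriv h) := by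
  have hd : Differentiable ℝ h := hh.differentiable (by norm_num)
  funext r
  exact (avg_hasDerivAt j (fun x => (hd x).hasDerivAt) (hh.continuous_deriv (by norm_num)) r).deriv

lemma avg_contDiff (n : ℕ) : ∀ (j : ℕ) {h : ℝ → ℝ}, ContDiff ℝ n h → ContDiff ℝ n (avg j h) := by
  induction n with
  | zero =>
    intro j h hh
    have : Continuous h := by
      have := hh.continuous
      exact this
    exact contDiff_zero.2 (avg_continuous j this)
  | succ n ih =>
    intro j h hh
    have h1 : ContDiff ℝ 1 h := hh.of_le (by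
      norm_cast
      exact Nat.le_add_left 1 n)
    have hd : Differentiable ℝ h := h1.differentiable (by norm_num)
    push_cast at hh ⊢
    rw [contDiff_succ_iff_deriv] at hh ⊢
    refine ⟨?_, ?_, ?_⟩
    · intro r
      exact (avg_hasDerivAt j (fun x => (hd x).hasDerivAt)
        (h1.continuous_deriv (by norm_num)) r).differentiableAt
    · intro hn
      simp at hn
    · rw [avg_deriv j h1]
      exact ih (j+2) hh.2.2

lemma avg_identity (j : ℕ) {h h' : ℝ → ℝ} (hd : ∀ x, HasDerivAt h (h' x) x)
    (hc : Continuous h') (r : ℝ) :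
    r * avg (j+2) h' r = (1/2) * (h r - (j+1) * avg j h r) := by
  have hcont : Continuous h := continuous_iff_continuousAt.2 fun x => (hd x).continuousAt
  have hder : ∀ s ∈ uIcc (0:ℝ) 1, HasDerivAt (fun s : ℝ => s^(j+1) * h (r * s^2))
      ((j+1) * (s^j * h (r*s^2)) + (2*r) * (s^(j+2) * h' (r * s^2))) s := by
    intro s _
    have h1 : HasDerivAt (fun s : ℝ => r * s^2) (r * (2 * s)) s := by
      simpa using (hasDerivAt_pow 2 s).const_mul r
    have h2 := (hd (r * s^2)).comp s h1
    have h3 := (hasDerivAt_pow (j+1) s).mul h2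
    refine h3.congr_deriv ?_
    rw [Nat.add_sub_cancel]
    simp only [Function.comp]
    push_cast
    ring
  have hint : IntervalIntegrable (fun s : ℝ =>
      (j+1) * (s^j * h (r*s^2)) + (2*r) * (s^(j+2) * h' (r * s^2))) volume 0 1 :=
    (by fun_prop : Continuous fun s : ℝ =>
      ((j:ℝ)+1) * (s^j * h (r*s^2)) + (2*r) * (s^(j+2) * h' (r * s^2))).intervalIntegrable _ _
  have hF := intervalIntegral.integral_eq_sub_of_hasDerivAt hder hint
  rw [intervalIntegral.integral_add, intervalIntegral.integral_const_mul,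
    intervalIntegral.integral_const_mul] at hF
  · simp only [one_pow, mul_one, one_mul, ne_eq, Nat.succ_ne_zero, not_false_eq_true, zero_pow,
      zero_mul, sub_zero] at hF
    unfold avg
    linarith
  · exact (by fun_prop : Continuous fun s : ℝ => ((j:ℝ)+1) * (s^j * h (r*s^2))).intervalIntegrable _ _
  · exact (by fun_prop : Continuous fun s : ℝ => (2*r) * (s^(j+2) * h' (r * s^2))).intervalIntegrable _ _

end Vale.Agent.P252
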