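import Mathlib

namespace Vale.Agent.P252

open Matrix

/-- Block matrix `δ e₀e₀ᵀ + γ (e₀ xᵀ + x e₀ᵀ) + α P + β x xᵀ`. -/
noncomputable def bmat {k : ℕ} (x : Fin k → ℝ) (al be ga de : ℝ) :
    Matrix (Fin (k + 1)) (Fin (k + 1)) ℝ :=
  Matrix.of fun i j =>
    Fin.cases (Fin.cases de (fun j' => ga * x j') j)
      (fun i' => Fin.cases (ga * x i')
        (fun j' => (if i' = j' then al else 0) + be * x i' * x j') j) i

variable {k : ℕ} (x : Fin k → ℝ) (al be ga de : ℝ)

@[simp] lemma bmat_zero_zero : bmat x al be ga de 0 0 = de := rfl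
@[simp] lemma bmat_zero_succ (j : Fin k) : bmat x al be ga de 0 j.succ = ga * x j := rfl
@[simp] lemma bmat_succ_zero (i : Fin k) : bmat x al be ga de i.succ 0 = ga * x i := rfl
@[simp] lemma bmat_succ_succ (i j : Fin k) :
    bmat x al be ga de i.succ j.succ = (if i = j then al else 0) + be * x i * x j := rfl

/-- squared norm -/
noncomputable def sq (x : Fin k → ℝ) : ℝ := ∑ i, x i ^ 2

lemma sq_nonneg' : 0 ≤ sq x := Finset.sum_nonneg fun i _ => by positivity

lemma bmat_mul (al' be' ga' de' : ℝ) (i j : Fin (k+1)) :
    (bmat x al be ga de * bmat x al' be' ga' de') i j =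
      Fin.cases (Fin.cases (de * de' + sq x * ga * ga')
          (fun j' => (de * ga' + ga * al' + sq x * ga * be') * x j') j)
        (fun i' => Fin.cases ((ga * de' + al * ga' + sq x * be * ga') * x i')
          (fun j' => (if i' = j' then al * al' else 0) +
            (ga * ga' + al * be' + be * al' + sq x * be * be') * x i' * x j') j) i := by
  rw [Matrix.mul_apply, Fin.sum_univ_succ]
  refine Fin.cases ?_ (fun i' => ?_) i <;> refine Fin.cases ?_ (fun j' => ?_) j
  · simp only [bmat_zero_zero, bmat_zero_succ, bmat_succ_zero, Fin.cases_zero]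
    congr 1
    rw [sq, Finset.sum_mul, Finset.sum_mul]
    exact Finset.sum_congr rfl fun i _ => by ring
  · simp only [bmat_zero_zero, bmat_zero_succ, bmat_succ_succ, Fin.cases_zero, Fin.cases_succ]
    have : ∀ i, ga * x i * ((if i = j' then al' else 0) + be' * x i * x j')
        = (if i = j' then ga * x j' * al' else 0) + x i ^ 2 * (ga * be' * x j') := by
      intro i
      split_ifs with h
      · subst h; ring
      · ring
    simp only [this]
    rw [Finset.sum_add_distrib, Finset.sum_ite_eq' Finset.univ j', ← Finset.sum_mul]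
    simp only [Finset.mem_univ, if_true]
    rw [← sq]; ring
  · simp only [bmat_zero_zero, bmat_succ_zero, bmat_succ_succ, Fin.cases_zero, Fin.cases_succ]
    have : ∀ j, ((if i' = j then al else 0) + be * x i' * x j) * (ga' * x j)
        = (if i' = j then al * ga' * x i' else 0) + x j ^ 2 * (be * x i' * ga') := by
      intro j
      split_ifs with h
      · subst h; ring
      · ring
    simp only [this]
    rw [Finset.sum_add_distrib, Finset.sum_ite_eq Finset.univ i', ← Finset.sum_mul]
    simp only [Finset.mem_univ, if_true]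
    rw [← sq]; ring
  · simp only [bmat_zero_succ, bmat_succ_zero, bmat_succ_succ, Fin.cases_succ]
    have : ∀ j, ((if i' = j then al else 0) + be * x i' * x j) *
          ((if j = j' then al' else 0) + be' * x j * x j')
        = (if i' = j then (al * (if i' = j' then al' else 0) + al * be' * x i' * x j') else 0)
          + (if j = j' then be * x i' * x j' * al' else 0)
          + x j ^ 2 * (be * x i' * be' * x j') := by
      intro j
      by_cases h : i' = j
      · subst h
        by_cases h2 : i' = j'
        · subst h2; simp; ring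
        · simp [h2]; ring
      · by_cases h2 : j = j'
        · subst h2; simp [h]; ring
        · simp [h, h2]; ring
    simp only [this]
    rw [Finset.sum_add_distrib, Finset.sum_add_distrib, Finset.sum_ite_eq Finset.univ i',
      Finset.sum_ite_eq' Finset.univ j', ← Finset.sum_mul]
    simp only [Finset.mem_univ, if_true]
    rw [← sq]
    split_ifs <;> ring

lemma bmat_one : bmat x 1 0 0 1 = 1 := by
  ext i j
  refine Fin.cases ?_ (fun i' => ?_) i <;> refine Fin.cases ?_ (fun j' => ?_) j
  · simp
  · simp [(Fin.succ_ne_zero j').symm]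
  · simp [Fin.succ_ne_zero i']
  · simp [Matrix.one_apply]

/-- the `2×2` minor -/
noncomputable def dzero (r al be ga de : ℝ) : ℝ := al * de + r * (be * de - ga ^ 2)

lemma bmat_mul_inv (hal : al ≠ 0) (hD : dzero (sq x) al be ga de ≠ 0) :
    bmat x al be ga de *
      bmat x (1 / al) (-(be * de - ga ^ 2) / (al * dzero (sq x) al be ga de))
        (-ga / dzero (sq x) al be ga de)
        ((al + sq x * be) / dzero (sq x) al be ga de) = 1 := by
  rw [← bmat_one x]
  ext i j
  rw [bmat_mul]
  set D := dzero (sq x) al be ga de with hDd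
  have hD' : D = al * de + sq x * (be * de - ga ^ 2) := rfl
  refine Fin.cases ?_ (fun i' => ?_) i <;> refine Fin.cases ?_ (fun j' => ?_) j
  · simp only [Fin.cases_zero, bmat_zero_zero]
    field_simp
    rw [hD']; ring
  · simp only [Fin.cases_zero, Fin.cases_succ, bmat_zero_succ]
    have : de * (-ga / D) + ga * (1 / al) + sq x * ga * (-(be * de - ga ^ 2) / (al * D)) = 0 := by
      field_simp
      rw [hD']; ring
    rw [this]
  · simp only [Fin.cases_zero, Fin.cases_succ, bmat_succ_zero]
    have : ga * ((al + sq x * be) / D) + al * (-ga / D) + sq x * be * (-ga / D) = 0 := by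
      field_simp
      ring
    rw [this]
  · simp only [Fin.cases_succ, bmat_succ_succ]
    have h1 : ga * (-ga / D) + al * (-(be * de - ga ^ 2) / (al * D)) + be * (1 / al) +
        sq x * be * (-(be * de - ga ^ 2) / (al * D)) = 0 := by
      field_simp
      rw [hD']; ring
    have h2 : al * (1 / al) = 1 := by field_simp
    rw [h1, h2]

lemma bmat_inv (hal : al ≠ 0) (hD : dzero (sq x) al be ga de ≠ 0) :
    (bmat x al be ga de)⁻¹ =
      bmat x (1 / al) (-(be * de - ga ^ 2) / (al * dzero (sq x) al be ga de))
        (-ga / dzero (sq x) al be ga de)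
        ((al + sq x * be) / dzero (sq x) al be ga de) :=
  Matrix.inv_eq_right_inv (bmat_mul_inv x al be ga de hal hD)

lemma bmat_inner (al' be' ga' de' : ℝ) :
    ∑ i, ∑ j, bmat x al be ga de i j * bmat x al' be' ga' de' i j =
      de * de' + 2 * sq x * ga * ga' + k * al * al' + sq x * (al * be' + be * al')
        + sq x ^ 2 * be * be' := by
  rw [Fin.sum_univ_succ]
  simp only [Fin.sum_univ_succ, bmat_zero_zero, bmat_zero_succ, bmat_succ_zero, bmat_succ_succ]
  have h1 : ∀ j, ga * x j * (ga' * x j) = x j ^ 2 * (ga * ga') := fun j => by ring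
  simp only [h1]
  rw [← Finset.sum_mul, ← sq, Finset.sum_add_distrib, ← Finset.sum_mul, ← sq]
  have h2 : ∀ i j, ((if i = j then al else 0) + be * x i * x j) *
      ((if i = j then al' else 0) + be' * x i * x j) =
      (if i = j then (al * al' + (al * be' + be * al') * x i ^ 2) else 0) +
        x j ^ 2 * (be * be' * x i ^ 2) := by
    intro i j
    split_ifs with h
    · subst h; ring
    · ring
  simp only [h2, Finset.sum_add_distrib, Finset.sum_ite_eq, Finset.mem_univ, if_true,
    Finset.sum_const, Finset.card_univ, Fintype.card_fin, ← Finset.sum_mul, ← Finset.mul_sum]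
  rw [← sq]
  simp only [nsmul_eq_mul]
  ring

lemma bmat_det (hal : al ≠ 0) (hde : de ≠ 0) (hk : 1 ≤ k) :
    (bmat x al be ga de).det = al ^ (k - 1) * dzero (sq x) al be ga de := by
  let dg : Fin (k + 1) → ℝ := Fin.cons de (fun _ => al)
  let U : Matrix (Fin (k + 1)) (Fin 2) ℝ := Matrix.of fun i l =>
    Fin.cases (![0, ga / de] l) (fun i' => x i' * (![ga / al, be / al] l)) i
  let V : Matrix (Fin 2) (Fin (k + 1)) ℝ := Matrix.of fun l j =>
    Fin.cases (![1, 0] l) (fun j' => ![0, x j'] l) j
  have hM : bmat x al be ga de = Matrix.diagonal dg * (1 + U * V) := by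
    ext i j
    rw [Matrix.diagonal_mul, Matrix.add_apply, Matrix.mul_apply, Fin.sum_univ_two]
    refine Fin.cases ?_ (fun i' => ?_) i <;> refine Fin.cases ?_ (fun j' => ?_) j
    · simp [dg, U, V]
    · simp [dg, U, V, (Fin.succ_ne_zero j').symm]
      field_simp
    · simp [dg, U, V, Fin.succ_ne_zero i']
      field_simp
    · simp only [dg, U, V, Matrix.one_apply, Fin.succ_inj, bmat_succ_succ, Fin.cons_succ,
        Matrix.of_apply, Fin.cases_succ, Matrix.cons_val_zero, Matrix.cons_val_one]
      split_ifs <;> field_simp <;> ring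
  have hVU : V * U = !![0, ga / de; sq x * ga / al, sq x * be / al] := by
    ext a b
    rw [Matrix.mul_apply, Fin.sum_univ_succ]
    fin_cases a <;> fin_cases b
    · simp [U, V]
    · simp [U, V]
    · simp only [U, V, Matrix.of_apply]
      simp
      rw [sq, Finset.sum_mul, Finset.sum_div]
      exact Finset.sum_congr rfl fun i _ => by ring
    · simp only [U, V, Matrix.of_apply]
      simp
      rw [sq, Finset.sum_mul, Finset.sum_div]
      exact Finset.sum_congr rfl fun i _ => by ring
  rw [hM, Matrix.det_mul, Matrix.det_diagonal, Matrix.det_one_add_mul_comm, hVU,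
    Fin.prod_univ_succ]
  simp only [dg, Fin.cons_zero, Fin.cons_succ, Finset.prod_const, Finset.card_univ,
    Fintype.card_fin]
  rw [Matrix.det_fin_two]
  obtain ⟨m, rfl⟩ : ∃ m, k = m + 1 := ⟨k - 1, by omega⟩
  simp only [Matrix.add_apply, Matrix.one_apply, dzero]
  simp
  field_simp
  ring

lemma bmat_isHermitian : (bmat x al be ga de).IsHermitian := by
  rw [Matrix.IsHermitian]
  ext i j
  rw [Matrix.conjTranspose_apply]
  refine Fin.cases ?_ (fun i' => ?_) i <;> refine Fin.cases ?_ (fun j' => ?_) j
  · simp
  · simp
  · simp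
  · simp only [bmat_succ_succ, star_trivial, eq_comm (a := j') (b := i')]
    ring

lemma bmat_posDef (hal : 0 < al) (hde : 0 < de) (hD : 0 < dzero (sq x) al be ga de) :
    (bmat x al be ga de).PosDef := by
  refine Matrix.PosDef.of_dotProduct_mulVec_pos (bmat_isHermitian x al be ga de) ?_
  intro v hv
  have hexp : star v ⬝ᵥ (bmat x al be ga de).mulVec v =
      de * v 0 ^ 2 + 2 * ga * v 0 * (∑ i : Fin k, x i * v i.succ) + al * (∑ i : Fin k, v i.succ ^ 2)
        + be * (∑ i : Fin k, x i * v i.succ) ^ 2 := by
    simp only [dotProduct, mulVec, star_trivial, Pi.star_apply]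
    rw [Fin.sum_univ_succ]
    simp only [Fin.sum_univ_succ (n := k), bmat_zero_zero, bmat_zero_succ, bmat_succ_zero,
      bmat_succ_succ]
    have e1 : ∀ i : Fin k, v i.succ * (ga * x i * v 0 +
        ∑ j : Fin k, ((if i = j then al else 0) + be * x i * x j) * v j.succ) =
        (x i * v i.succ) * (ga * v 0) + v i.succ ^ 2 * al
          + (x i * v i.succ) * (be * ∑ j : Fin k, x j * v j.succ) := by
      intro i
      have : ∀ j : Fin k, ((if i = j then al else 0) + be * x i * x j) * v j.succ =
          (if i = j then al * v i.succ else 0) + (be * x i) * (x j * v j.succ) := by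
        intro j
        split_ifs with h
        · subst h; ring
        · ring
      simp only [this, Finset.sum_add_distrib, Finset.sum_ite_eq, Finset.mem_univ, if_true,
        ← Finset.mul_sum]
      ring
    simp only [e1, Finset.sum_add_distrib, ← Finset.sum_mul]
    have e2 : ∑ j : Fin k, ga * x j * v j.succ = ga * ∑ j : Fin k, x j * v j.succ := by
      rw [Finset.mul_sum]; exact Finset.sum_congr rfl fun i _ => by ring
    rw [e2]
    ring
  rw [hexp]
  set s := ∑ i : Fin k, x i * v i.succ with hs
  set q := ∑ i : Fin k, v i.succ ^ 2 with hq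
  have hcs : s ^ 2 ≤ sq x * q := by
    rw [hs, hq, sq]
    exact Finset.sum_mul_sq_le_sq_mul_sq _ _ _
  have hq0 : 0 ≤ q := Finset.sum_nonneg fun i _ => by positivity
  have hkey : de * (de * v 0 ^ 2 + 2 * ga * v 0 * s + al * q + be * s ^ 2) =
      (de * v 0 + ga * s) ^ 2 + (al * de * q + (be * de - ga ^ 2) * s ^ 2) := by ring
  have hlow : 0 ≤ al * de * q + (be * de - ga ^ 2) * s ^ 2 ∧
      (0 < q → 0 < al * de * q + (be * de - ga ^ 2) * s ^ 2) := by
    have hD' : 0 < al * de + sq x * (be * de - ga ^ 2) := hD
    rcases le_or_gt 0 (be * de - ga ^ 2) with h | h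
    · constructor
      · positivity
      · intro hq1
        positivity
    · have h1 : (be * de - ga ^ 2) * (sq x * q) ≤ (be * de - ga ^ 2) * s ^ 2 :=
        mul_le_mul_of_nonpos_left hcs h.le
      have h2 : al * de * q + (be * de - ga ^ 2) * (sq x * q) =
        (al * de + sq x * (be * de - ga ^ 2)) * q := by ring
      constructor
      · nlinarith [mul_nonneg hD'.le hq0]
      · intro hq1
        nlinarith [mul_pos hD' hq1]
  have hfin : 0 < de * (de * v 0 ^ 2 + 2 * ga * v 0 * s + al * q + be * s ^ 2) := by
    rw [hkey]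
    rcases hq0.lt_or_eq with hq1 | hq1
    · have := hlow.2 hq1
      positivity
    · have hvs : ∀ i : Fin k, v i.succ = 0 := by
        intro i
        have := (Finset.sum_eq_zero_iff_of_nonneg (fun i _ => by positivity)).1 (hq ▸ hq1.symm)
          i (Finset.mem_univ i)
        exact pow_eq_zero_iff (two_ne_zero) |>.1 this
      have hs0 : s = 0 := by rw [hs]; simp [hvs]
      have hv0 : v 0 ≠ 0 := by
        intro h0
        apply hv
        ext i
        refine Fin.cases ?_ (fun i' => ?_) i
        · simpa using h0
        · simpa using hvs i'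
      rw [hs0, ← hq1]
      have : 0 < (de * v 0) ^ 2 := by positivity
      simpa using this
  exact (pos_iff_pos_of_mul_pos hfin).1 hde

end Vale.Agent.P252
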