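import Mathlib

namespace Vale.Agent.P252

/-- The Hessian matrix `D²u(x)` of a real function `u` on `ℝⁿ`. -/
noncomputable def hess {n : ℕ} (u : (Fin n → ℝ) → ℝ) (x : Fin n → ℝ) :
    Matrix (Fin n) (Fin n) ℝ :=
  Matrix.of fun i j =>
    fderiv ℝ (fun y => fderiv ℝ u y (Pi.single j 1)) x (Pi.single i 1)

/-- The function `w = (det D²u)^(-(n+1)/(n+2))`. -/
noncomputable def weight {n : ℕ} (u : (Fin n → ℝ) → ℝ) (x : Fin n → ℝ) : ℝ :=
  (hess u x).det ^ (-((n : ℝ) + 1) / ((n : ℝ) + 2))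

/-- The cofactor matrix `U = det(D²u) (D²u)⁻¹`. -/
noncomputable def cofactor {n : ℕ} (u : (Fin n → ℝ) → ℝ) (x : Fin n → ℝ) :
    Matrix (Fin n) (Fin n) ℝ :=
  (hess u x).det • (hess u x)⁻¹

/-- The affine maximal equation (AM) at the point `x`. -/
def AffineMaximalAt {n : ℕ} (u : (Fin n → ℝ) → ℝ) (x : Fin n → ℝ) : Prop :=
  ∑ i, ∑ j, cofactor u x i j * hess (weight u) x i j = 0

end Vale.Agent.P252
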