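import Mathlib
import Vale.Agent.P252.Defs
import Vale.Agent.P252.CalcMat

namespace Vale.Agent.P252

open ContinuousLinearMap

variable {k : ℕ}

/-- the tail of a vector -/
def tl (z : Fin (k + 1) → ℝ) : Fin k → ℝ := fun i => z i.succ

/-- the squared norm of the tail -/
noncomputable def rho (z : Fin (k + 1) → ℝ) : ℝ := sq (tl z)

lemma rho_nonneg (z : Fin (k + 1) → ℝ) : 0 ≤ rho z := sq_nonneg' _

/-- partial derivatives at a point of the plane -/
def HasPD (Ps : ℝ × ℝ → ℝ) (a b : ℝ) (p : ℝ × ℝ) : Prop :=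
  HasFDerivAt Ps (a • ContinuousLinearMap.fst ℝ ℝ ℝ + b • ContinuousLinearMap.snd ℝ ℝ ℝ) p

lemma hasFDerivAt_rho (z : Fin (k + 1) → ℝ) :
    HasFDerivAt (rho (k := k))
      (∑ i : Fin k, (2 * z i.succ) • ContinuousLinearMap.proj (R := ℝ) (φ := fun _ => ℝ) i.succ) z := by
  unfold rho sq tl
  refine HasFDerivAt.fun_sum fun i _ => ?_
  have h : HasFDerivAt (fun y : Fin (k + 1) → ℝ => y i.succ)
      (ContinuousLinearMap.proj (R := ℝ) (φ := fun _ => ℝ) i.succ) z :=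
    hasFDerivAt_apply i.succ z
  have := h.pow 2
  refine this.congr_fderiv ?_
  ext v
  simp

lemma hasFDerivAt_comp {Ps : ℝ × ℝ → ℝ} {a b : ℝ} {z : Fin (k + 1) → ℝ}
    (h : HasPD Ps a b (rho z, z 0)) :
    HasFDerivAt (fun y : Fin (k + 1) → ℝ => Ps (rho y, y 0))
      (a • (∑ i : Fin k, (2 * z i.succ) •
          ContinuousLinearMap.proj (R := ℝ) (φ := fun _ => ℝ) i.succ)
        + b • ContinuousLinearMap.proj (R := ℝ) (φ := fun _ => ℝ) 0) z := by
  have h0 : HasFDerivAt (fun y : Fin (k + 1) → ℝ => y 0)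
      (ContinuousLinearMap.proj (R := ℝ) (φ := fun _ => ℝ) 0) z :=
    hasFDerivAt_apply 0 z
  have h1 := (hasFDerivAt_rho z).prodMk h0
  have h2 := HasFDerivAt.comp (f := fun y : Fin (k + 1) → ℝ => (rho y, y 0)) z h h1
  refine h2.congr_fderiv ?_
  ext v
  simp

lemma fderiv_comp_zero {Ps : ℝ × ℝ → ℝ} {a b : ℝ} {z : Fin (k + 1) → ℝ}
    (h : HasPD Ps a b (rho z, z 0)) :
    fderiv ℝ (fun y : Fin (k + 1) → ℝ => Ps (rho y, y 0)) z (Pi.single 0 1) = b := by
  rw [(hasFDerivAt_comp h).fderiv]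
  simp

lemma sum_single_succ (z : Fin (k + 1) → ℝ) (j : Fin k) :
    ∑ i : Fin k, (2 * z i.succ) * (Pi.single j.succ (1 : ℝ) : Fin (k + 1) → ℝ) i.succ
      = 2 * z j.succ := by
  rw [Finset.sum_eq_single j]
  · simp
  · intro b _ hb
    rw [Pi.single_eq_of_ne]
    · simp
    · simpa using hb
  · simp

lemma fderiv_comp_succ {Ps : ℝ × ℝ → ℝ} {a b : ℝ} {z : Fin (k + 1) → ℝ}
    (h : HasPD Ps a b (rho z, z 0)) (j : Fin k) :
    fderiv ℝ (fun y : Fin (k + 1) → ℝ => Ps (rho y, y 0)) z (Pi.single j.succ 1)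
      = 2 * a * z j.succ := by
  rw [(hasFDerivAt_comp h).fderiv]
  simp only [add_apply, smul_apply,
    sum_apply, ContinuousLinearMap.proj_apply, smul_eq_mul]
  rw [sum_single_succ]
  simp [(Fin.succ_ne_zero j).symm]
  ring

theorem hess_comp {Ph Ph1 Ph2 : ℝ × ℝ → ℝ}
    (h : ∀ z : Fin (k + 1) → ℝ, HasPD Ph (Ph1 (rho z, z 0)) (Ph2 (rho z, z 0)) (rho z, z 0))
    (z : Fin (k + 1) → ℝ) {a11 a12 a22 : ℝ}
    (h1 : HasPD Ph1 a11 a12 (rho z, z 0)) (h2 : HasPD Ph2 a12 a22 (rho z, z 0)) :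
    hess (fun y : Fin (k + 1) → ℝ => Ph (rho y, y 0)) z
      = bmat (tl z) (2 * Ph1 (rho z, z 0)) (4 * a11) (2 * a12) a22 := by
  have e0 : (fun y : Fin (k + 1) → ℝ =>
      fderiv ℝ (fun y : Fin (k + 1) → ℝ => Ph (rho y, y 0)) y (Pi.single 0 1))
      = fun y => Ph2 (rho y, y 0) := funext fun y => fderiv_comp_zero (h y)
  have es : ∀ j : Fin k, (fun y : Fin (k + 1) → ℝ =>
      fderiv ℝ (fun y : Fin (k + 1) → ℝ => Ph (rho y, y 0)) y (Pi.single j.succ 1))
      = fun y => 2 * Ph1 (rho y, y 0) * y j.succ := fun j =>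
    funext fun y => fderiv_comp_succ (h y) j
  have hs : ∀ j : Fin k, HasFDerivAt (fun y : Fin (k + 1) → ℝ => 2 * Ph1 (rho y, y 0) * y j.succ)
      ((2 * Ph1 (rho z, z 0)) • ContinuousLinearMap.proj (R := ℝ) (φ := fun _ => ℝ) j.succ +
        z j.succ • ((2 : ℝ) • (a11 • (∑ i : Fin k, (2 * z i.succ) •
          ContinuousLinearMap.proj (R := ℝ) (φ := fun _ => ℝ) i.succ)
        + a12 • ContinuousLinearMap.proj (R := ℝ) (φ := fun _ => ℝ) 0))) z := by
    intro j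
    have hj : HasFDerivAt (fun y : Fin (k + 1) → ℝ => y j.succ)
        (ContinuousLinearMap.proj (R := ℝ) (φ := fun _ => ℝ) j.succ) z :=
      hasFDerivAt_apply j.succ z
    exact ((hasFDerivAt_comp h1).const_mul 2).mul hj
  ext i j
  unfold hess
  rw [Matrix.of_apply]
  refine Fin.cases ?_ (fun j' => ?_) j
  · rw [e0]
    refine Fin.cases ?_ (fun i' => ?_) i
    · rw [fderiv_comp_zero h2, bmat_zero_zero]
    · rw [fderiv_comp_succ h2, bmat_succ_zero]
      rfl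
  · rw [es, (hs j').fderiv]
    refine Fin.cases ?_ (fun i' => ?_) i
    · rw [bmat_zero_succ]
      simp [tl, Fin.succ_ne_zero]
      ring
    · rw [bmat_succ_succ]
      simp only [add_apply, smul_apply,
        sum_apply, ContinuousLinearMap.proj_apply, smul_eq_mul]
      rw [sum_single_succ]
      simp only [Pi.single_apply, tl, Fin.succ_inj, (Fin.succ_ne_zero i').symm, if_false,
        eq_comm (a := j') (b := i')]
      split_ifs <;> ring

end Vale.Agent.P252
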