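import Mathlib
import Vale.Agent.P252.CalcHess

namespace Vale.Agent.P252

open ContinuousLinearMap

lemma HasPD.congr {F : ℝ × ℝ → ℝ} {a b a' b' : ℝ} {p : ℝ × ℝ} (h : HasPD F a b p)
    (ha : a = a') (hb : b = b') : HasPD F a' b' p := by subst ha hb; exact h

lemma HasPD.of_fst {g : ℝ → ℝ} {g' : ℝ} {p : ℝ × ℝ} (h : HasDerivAt g g' p.1) :
    HasPD (fun q => g q.1) g' 0 p := by
  unfold HasPD
  have := HasFDerivAt.comp (f := fun q : ℝ × ℝ => q.1) p h.hasFDerivAt hasFDerivAt_fst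
  refine this.congr_fderiv ?_
  ext <;> simp

lemma HasPD.snd {p : ℝ × ℝ} : HasPD (fun q => q.2) 0 1 p := by
  unfold HasPD
  refine (hasFDerivAt_snd (p := p)).congr_fderiv ?_
  ext <;> simp

lemma HasPD.comp {F : ℝ × ℝ → ℝ} {a b : ℝ} {p : ℝ × ℝ} {g : ℝ → ℝ} {g' : ℝ}
    (hg : HasDerivAt g g' (F p)) (h : HasPD F a b p) :
    HasPD (fun q => g (F q)) (g' * a) (g' * b) p := by
  unfold HasPD at *
  have := HasFDerivAt.comp p hg.hasFDerivAt h
  refine this.congr_fderiv ?_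
  ext <;> simp [mul_comm]

lemma HasPD.mul {F G : ℝ × ℝ → ℝ} {a b c d : ℝ} {p : ℝ × ℝ}
    (hF : HasPD F a b p) (hG : HasPD G c d p) :
    HasPD (fun q => F q * G q) (F p * c + G p * a) (F p * d + G p * b) p := by
  unfold HasPD at *
  refine (HasFDerivAt.mul hF hG).congr_fderiv ?_
  ext <;> simp

lemma HasPD.add {F G : ℝ × ℝ → ℝ} {a b c d : ℝ} {p : ℝ × ℝ}
    (hF : HasPD F a b p) (hG : HasPD G c d p) :
    HasPD (fun q => F q + G q) (a + c) (b + d) p := by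
  unfold HasPD at *
  refine (HasFDerivAt.add hF hG).congr_fderiv ?_
  ext <;> simp

/-- The function `√(f(t)² + s²)`. -/
noncomputable def Phi (f : ℝ → ℝ) (p : ℝ × ℝ) : ℝ := Real.sqrt (f p.1 ^ 2 + p.2 ^ 2)

section

variable {f : ℝ → ℝ} {p : ℝ × ℝ}

lemma Phi_pos (h0 : 0 < f p.1) : 0 < Phi f p := Real.sqrt_pos.2 (by positivity)

lemma Phi_sq : Phi f p ^ 2 = f p.1 ^ 2 + p.2 ^ 2 := Real.sq_sqrt (by positivity)

lemma HasPD.Phi {f1 : ℝ} (hf : HasDerivAt f f1 p.1) (h0 : 0 < f p.1) :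
    HasPD (Phi f) (f p.1 * f1 / Phi f p) (p.2 / Phi f p) p := by
  have h1 : HasPD (fun q : ℝ × ℝ => f q.1 ^ 2 + q.2 ^ 2) (2 * f p.1 * f1) (2 * p.2) p := by
    have := (((HasPD.of_fst hf).comp (g := fun x => x ^ 2) (hasDerivAt_pow 2 _)).add
      ((HasPD.snd (p := p)).comp (g := fun x => x ^ 2) (hasDerivAt_pow 2 _)))
    exact this.congr (by simp) (by simp)
  have hne : f p.1 ^ 2 + p.2 ^ 2 ≠ 0 := by positivity
  have h2 := HasPD.comp (F := fun q : ℝ × ℝ => f q.1 ^ 2 + q.2 ^ 2)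
    (Real.hasDerivAt_sqrt hne) h1
  have h3 : Real.sqrt (f p.1 ^ 2 + p.2 ^ 2) ≠ 0 := (Phi_pos h0).ne'
  refine h2.congr ?_ ?_ <;> (simp only [Vale.Agent.P252.Phi]; field_simp)

lemma HasPD.Phi_inv {f1 : ℝ} (hf : HasDerivAt f f1 p.1) (h0 : 0 < f p.1) :
    HasPD (fun q => (Vale.Agent.P252.Phi f q)⁻¹) (-(f p.1 * f1) / Vale.Agent.P252.Phi f p ^ 3)
      (-p.2 / Vale.Agent.P252.Phi f p ^ 3) p := by
  have hp := (Phi_pos h0).ne'
  have := (HasPD.Phi hf h0).comp (g := fun x => x⁻¹) (hasDerivAt_inv hp)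
  refine this.congr ?_ ?_ <;> field_simp

lemma HasPD.Phi_pow {f1 : ℝ} (hf : HasDerivAt f f1 p.1) (h0 : 0 < f p.1) (m : ℕ) :
    HasPD (fun q => (Vale.Agent.P252.Phi f q) ^ m)
      (m * Vale.Agent.P252.Phi f p ^ m / Vale.Agent.P252.Phi f p ^ 2 * (f p.1 * f1))
      (m * Vale.Agent.P252.Phi f p ^ m / Vale.Agent.P252.Phi f p ^ 2 * p.2) p := by
  have hp := (Phi_pos h0).ne'
  have := (HasPD.Phi hf h0).comp (g := fun x => x ^ m) (hasDerivAt_pow m _)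
  have hm : (m : ℝ) * Vale.Agent.P252.Phi f p ^ (m - 1) =
      m * Vale.Agent.P252.Phi f p ^ m / Vale.Agent.P252.Phi f p := by
    rcases m with _ | m
    · simp
    · rw [pow_succ]; simp; field_simp
  refine this.congr ?_ ?_ <;> (rw [hm]; field_simp)

end

end Vale.Agent.P252
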