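import Mathlib
import Vale.Agent.P252.CalcPD
import Vale.Agent.P252.CalcAlg

namespace Vale.Agent.P252

variable {k : ℕ} {f : ℝ → ℝ}

/-- the counterexample function -/
noncomputable def uu (k : ℕ) (f : ℝ → ℝ) (y : Fin (k + 1) → ℝ) : ℝ := Phi f (rho y, y 0)

/-- Hypotheses on derivatives. -/
structure Prof (f f1 f2 : ℝ → ℝ) : Prop where
  d1 : ∀ t, HasDerivAt f (f1 t) t
  d2 : ∀ t, HasDerivAt f1 (f2 t) t
  p0 : ∀ t, 0 ≤ t → 0 < f t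
  p1 : ∀ t, 0 ≤ t → 0 < f1 t
  p2 : ∀ t, 0 ≤ t → 0 < f1 t + 2 * t * f2 t

theorem hess_uu {f1 f2 : ℝ → ℝ} (h : Prof f f1 f2) (z : Fin (k + 1) → ℝ) :
    hess (uu k f) z = bmat (tl z) (2 * f (rho z) * f1 (rho z) / uu k f z)
      (4 * ((f1 (rho z) ^ 2 + f (rho z) * f2 (rho z)) / uu k f z
        - (f (rho z) * f1 (rho z)) ^ 2 / uu k f z ^ 3))
      (z 0 * (-2 * f (rho z) * f1 (rho z) / uu k f z ^ 3))
      (f (rho z) ^ 2 / uu k f z ^ 3) := by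
  have hz := h.p0 _ (rho_nonneg z)
  have hP : 0 < uu k f z := Phi_pos (p := (rho z, z 0)) hz
  have hPsq : uu k f z ^ 2 = f (rho z) ^ 2 + z 0 ^ 2 := Phi_sq (p := (rho z, z 0))
  have h0 : ∀ z : Fin (k + 1) → ℝ, HasPD (Phi f)
      ((fun q : ℝ × ℝ => (f q.1 * f1 q.1) * (Phi f q)⁻¹) (rho z, z 0))
      ((fun q : ℝ × ℝ => q.2 * (Phi f q)⁻¹) (rho z, z 0)) (rho z, z 0) := fun z =>
    (HasPD.Phi (p := (rho z, z 0)) (h.d1 _) (h.p0 _ (rho_nonneg z))).congr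
      (div_eq_mul_inv _ _) (div_eq_mul_inv _ _)
  have hinv := HasPD.Phi_inv (p := (rho z, z 0)) (h.d1 _) hz
  have h1 : HasPD (fun q : ℝ × ℝ => (f q.1 * f1 q.1) * (Phi f q)⁻¹)
      ((f1 (rho z) ^ 2 + f (rho z) * f2 (rho z)) / uu k f z
        - (f (rho z) * f1 (rho z)) ^ 2 / uu k f z ^ 3)
      (z 0 * (-1 * f (rho z) * f1 (rho z) / uu k f z ^ 3)) (rho z, z 0) := by
    have := (HasPD.of_fst (p := (rho z, z 0)) ((h.d1 _).mul (h.d2 _))).mul hinv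
    refine this.congr ?_ ?_
    · simp only [uu, Pi.mul_apply]; ring
    · simp only [uu, Pi.mul_apply]; ring
  have h2 : HasPD (fun q : ℝ × ℝ => q.2 * (Phi f q)⁻¹)
      (z 0 * (-1 * f (rho z) * f1 (rho z) / uu k f z ^ 3))
      (f (rho z) ^ 2 / uu k f z ^ 3) (rho z, z 0) := by
    have := (HasPD.snd (p := (rho z, z 0))).mul hinv
    refine this.congr ?_ ?_
    · simp only [uu]; ring
    · have e : Phi f (rho z, z 0) = uu k f z := rfl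
      simp only [e]
      have e2 : f (rho z) ^ 2 = uu k f z ^ 2 - z 0 ^ 2 := by rw [hPsq]; ring
      rw [e2]
      field_simp
      ring
  have := hess_comp (Ph := Phi f) h0 z h1 h2
  have e3 : (fun y : Fin (k + 1) → ℝ => Phi f (rho y, y 0)) = uu k f := rfl
  rw [e3] at this
  rw [this]
  have e : Phi f (rho z, z 0) = uu k f z := rfl
  simp only [e]
  congr 1
  · ring
  · ring

lemma uu_pos {f1 f2 : ℝ → ℝ} (h : Prof f f1 f2) (z : Fin (k + 1) → ℝ) : 0 < uu k f z :=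
  Phi_pos (p := (rho z, z 0)) (h.p0 _ (rho_nonneg z))

lemma uu_sq (z : Fin (k + 1) → ℝ) : uu k f z ^ 2 = f (rho z) ^ 2 + z 0 ^ 2 :=
  Phi_sq (p := (rho z, z 0))

lemma alg_D0 (F F1 F2 r s P : ℝ) (hP : P ≠ 0) (hsq : P ^ 2 = F ^ 2 + s ^ 2) :
    dzero r (2 * F * F1 / P) (4 * ((F1 ^ 2 + F * F2) / P - (F * F1) ^ 2 / P ^ 3))
      (s * (-2 * F * F1 / P ^ 3)) (F ^ 2 / P ^ 3) = 2 * F ^ 3 * (F1 + 2 * r * F2) / P ^ 4 := by
  unfold dzero
  have hs : s ^ 2 = P ^ 2 - F ^ 2 := by rw [hsq]; ring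
  rw [mul_pow s, hs]
  field_simp
  ring

lemma alg_minor (F F1 F2 s P : ℝ) (hP : P ≠ 0) (hsq : P ^ 2 = F ^ 2 + s ^ 2) :
    (4 * ((F1 ^ 2 + F * F2) / P - (F * F1) ^ 2 / P ^ 3)) * (F ^ 2 / P ^ 3)
      - (s * (-2 * F * F1 / P ^ 3)) ^ 2 = 4 * F ^ 3 * F2 / P ^ 4 := by
  have hs : s ^ 2 = P ^ 2 - F ^ 2 := by rw [hsq]; ring
  rw [mul_pow s, hs]
  field_simp
  ring

theorem hess_uu_posDef {f1 f2 : ℝ → ℝ} (h : Prof f f1 f2) (z : Fin (k + 1) → ℝ) :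
    (hess (uu k f) z).PosDef := by
  rw [hess_uu h]
  have hP := uu_pos (k := k) h z
  have h0 := h.p0 _ (rho_nonneg z)
  have h1 := h.p1 _ (rho_nonneg z)
  have h2 := h.p2 _ (rho_nonneg z)
  refine bmat_posDef _ _ _ _ _ (by positivity) (by positivity) ?_
  have e : sq (tl z) = rho z := rfl
  rw [e, alg_D0 _ _ _ _ _ _ hP.ne' (uu_sq z)]
  positivity

/-- `G = f^(k+2) ψ` -/
noncomputable def GG (k : ℕ) (f f1 f2 : ℝ → ℝ) (t : ℝ) : ℝ :=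
  f t ^ (k + 2) * ((2 * f1 t) ^ (k - 1) * (2 * f1 t + 4 * t * f2 t))

lemma GG_pos {f1 f2 : ℝ → ℝ} (h : Prof f f1 f2) {t : ℝ} (ht : 0 ≤ t) : 0 < GG k f f1 f2 t := by
  have h0 := h.p0 _ ht
  have h1 := h.p1 _ ht
  have h2 := h.p2 _ ht
  have h3 : 0 < 2 * f1 t + 4 * t * f2 t := by linarith
  unfold GG
  positivity

theorem det_hess_uu {f1 f2 : ℝ → ℝ} (h : Prof f f1 f2) (hk : 1 ≤ k) (z : Fin (k + 1) → ℝ) :
    (hess (uu k f) z).det = GG k f f1 f2 (rho z) / uu k f z ^ (k + 3) := by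
  rw [hess_uu h]
  have hP := uu_pos (k := k) h z
  have h0 := h.p0 _ (rho_nonneg z)
  have h1 := h.p1 _ (rho_nonneg z)
  have h2 := h.p2 _ (rho_nonneg z)
  rw [bmat_det _ _ _ _ _ (by positivity) (by positivity) hk]
  have e : sq (tl z) = rho z := rfl
  rw [e, alg_D0 _ _ _ _ _ _ hP.ne' (uu_sq z)]
  obtain ⟨m, rfl⟩ : ∃ m, k = m + 1 := ⟨k - 1, by omega⟩
  unfold GG
  simp only [Nat.add_sub_cancel]
  set F := f (rho z)
  set F1 := f1 (rho z)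
  set F2 := f2 (rho z)
  set P := uu (m + 1) f z
  rw [div_pow]
  have e1 : (2 * F * F1) ^ m = F ^ m * (2 * F1) ^ m := by rw [← mul_pow]; ring
  rw [e1]
  field_simp
  ring

/-- the exponent -/
noncomputable def th (k : ℕ) : ℝ := ((k : ℝ) + 2) / ((k : ℝ) + 3)

/-- `ω = G^(-(k+2)/(k+3))` -/
noncomputable def om (k : ℕ) (f f1 f2 : ℝ → ℝ) (t : ℝ) : ℝ := (GG k f f1 f2 t) ^ (-th k)

theorem weight_uu {f1 f2 : ℝ → ℝ} (h : Prof f f1 f2) (hk : 1 ≤ k) (z : Fin (k + 1) → ℝ) :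
    weight (uu k f) z = uu k f z ^ (k + 2) * om k f f1 f2 (rho z) := by
  unfold weight om
  rw [det_hess_uu h hk]
  have hP := uu_pos (k := k) h z
  have hG := GG_pos (k := k) h (rho_nonneg z)
  have e : -(((k + 1 : ℕ) : ℝ) + 1) / (((k + 1 : ℕ) : ℝ) + 2) = -th k := by
    unfold th; push_cast; ring
  rw [e, Real.div_rpow hG.le (by positivity)]
  have e2 : (uu k f z ^ (k + 3)) ^ (-th k) = (uu k f z ^ (k + 2))⁻¹ := by
    rw [Real.rpow_neg (by positivity), ← Real.rpow_natCast, ← Real.rpow_mul hP.le]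
    have : ((k + 3 : ℕ) : ℝ) * th k = ((k + 2 : ℕ) : ℝ) := by
      unfold th; push_cast; field_simp
    rw [this, Real.rpow_natCast]
  rw [e2]
  field_simp

end Vale.Agent.P252
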