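import Mathlib
import Vale.Agent.P252.CalcU

namespace Vale.Agent.P252

variable {k : ℕ} {f : ℝ → ℝ}

/-- `λ = G'/G` -/
noncomputable def lam (k : ℕ) (f f1 f2 : ℝ → ℝ) (t : ℝ) : ℝ :=
  deriv (GG k f f1 f2) t / GG k f f1 f2 t

/-- derivative of `ω` -/
noncomputable def om1 (k : ℕ) (f f1 f2 : ℝ → ℝ) (t : ℝ) : ℝ :=
  -th k * lam k f f1 f2 t * om k f f1 f2 t

lemma hasDerivAt_om {f1 f2 : ℝ → ℝ} (h : Prof f f1 f2)
    (hG : ∀ t, DifferentiableAt ℝ (GG k f f1 f2) t) {t : ℝ} (ht : 0 ≤ t) :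
    HasDerivAt (om k f f1 f2) (om1 k f f1 f2 t) t := by
  have hp := GG_pos (k := k) h ht
  have h1 := (hG t).hasDerivAt.rpow_const (p := -th k) (Or.inl hp.ne')
  refine h1.congr_deriv ?_
  unfold om1 lam om
  rw [Real.rpow_sub_one hp.ne']
  ring

/-- abstract data: `ω` and two derivatives -/
structure OmData (om om1 : ℝ → ℝ) (t om2 : ℝ) : Prop where
  e1 : ∀ t, 0 ≤ t → HasDerivAt om (om1 t) t
  e2 : HasDerivAt om1 om2 t

theorem hess_w {f1 f2 : ℝ → ℝ} (h : Prof f f1 f2) {w w1 : ℝ → ℝ} {w2 : ℝ}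
    (z : Fin (k + 1) → ℝ) (ho : OmData w w1 (rho z) w2) :
    hess (fun y => uu k f y ^ (k + 2) * w (rho y)) z =
      bmat (tl z)
        (2 * (((k : ℝ) + 2) * uu k f z ^ k * (f (rho z) * f1 (rho z)) * w (rho z)
          + uu k f z ^ k * uu k f z ^ 2 * w1 (rho z)))
        (4 * (((k : ℝ) + 2) * k * (uu k f z ^ k / uu k f z ^ 2) *
            (f (rho z) * f1 (rho z)) ^ 2 * w (rho z)
          + ((k : ℝ) + 2) * uu k f z ^ k * (f1 (rho z) ^ 2 + f (rho z) * f2 (rho z)) * w (rho z)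
          + 2 * ((k : ℝ) + 2) * uu k f z ^ k * (f (rho z) * f1 (rho z)) * w1 (rho z)
          + uu k f z ^ k * uu k f z ^ 2 * w2))
        (z 0 * (2 * (((k : ℝ) + 2) * k * (uu k f z ^ k / uu k f z ^ 2) *
            (f (rho z) * f1 (rho z)) * w (rho z)
          + ((k : ℝ) + 2) * uu k f z ^ k * w1 (rho z))))
        (((k : ℝ) + 2) * k * (uu k f z ^ k / uu k f z ^ 2) * z 0 ^ 2 * w (rho z)
          + ((k : ℝ) + 2) * uu k f z ^ k * w (rho z)) := by
  have hz := h.p0 _ (rho_nonneg z)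
  have hP : 0 < uu k f z := uu_pos h z
  have hPp : ∀ (z : Fin (k + 1) → ℝ) (m : ℕ), HasPD (fun q => Phi f q ^ m)
      (m * uu k f z ^ m / uu k f z ^ 2 * (f (rho z) * f1 (rho z)))
      (m * uu k f z ^ m / uu k f z ^ 2 * z 0) (rho z, z 0) := fun z m =>
    HasPD.Phi_pow (p := (rho z, z 0)) (h.d1 _) (h.p0 _ (rho_nonneg z)) m
  -- first derivatives
  have h0 : ∀ z : Fin (k + 1) → ℝ, HasPD (fun q => Phi f q ^ (k + 2) * w q.1)
      ((fun q : ℝ × ℝ => ((k : ℝ) + 2) * (Phi f q ^ k * ((f q.1 * f1 q.1) * w q.1))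
          + Phi f q ^ (k + 2) * w1 q.1) (rho z, z 0))
      ((fun q : ℝ × ℝ => ((k : ℝ) + 2) * (Phi f q ^ k * (q.2 * w q.1))) (rho z, z 0))
      (rho z, z 0) := by
    intro z
    have hP : 0 < uu k f z := uu_pos h z
    have e : Phi f (rho z, z 0) = uu k f z := rfl
    have := (hPp z (k + 2)).mul (HasPD.of_fst (p := (rho z, z 0)) (ho.e1 _ (rho_nonneg z)))
    refine this.congr ?_ ?_
    · simp only [e]; push_cast; field_simp; ring
    · simp only [e]; push_cast; field_simp; ring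
  have e : Phi f (rho z, z 0) = uu k f z := rfl
  have hw := HasPD.of_fst (p := (rho z, z 0)) (ho.e1 _ (rho_nonneg z))
  have hw1 := HasPD.of_fst (p := (rho z, z 0)) ho.e2
  have hff := HasPD.of_fst (p := (rho z, z 0)) ((h.d1 (rho z)).mul (h.d2 (rho z)))
  have hcon : HasPD (fun _ : ℝ × ℝ => (k : ℝ) + 2) 0 0 (rho z, z 0) := by
    have := HasPD.of_fst (p := (rho z, z 0)) (hasDerivAt_const (rho z) ((k : ℝ) + 2))
    exact this
  have h1 : HasPD (fun q : ℝ × ℝ => ((k : ℝ) + 2) * (Phi f q ^ k * ((f q.1 * f1 q.1) * w q.1))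
          + Phi f q ^ (k + 2) * w1 q.1)
        (((k : ℝ) + 2) * k * (uu k f z ^ k / uu k f z ^ 2) *
            (f (rho z) * f1 (rho z)) ^ 2 * w (rho z)
          + ((k : ℝ) + 2) * uu k f z ^ k * (f1 (rho z) ^ 2 + f (rho z) * f2 (rho z)) * w (rho z)
          + 2 * ((k : ℝ) + 2) * uu k f z ^ k * (f (rho z) * f1 (rho z)) * w1 (rho z)
          + uu k f z ^ k * uu k f z ^ 2 * w2)
        (z 0 * (((k : ℝ) + 2) * k * (uu k f z ^ k / uu k f z ^ 2) *
            (f (rho z) * f1 (rho z)) * w (rho z)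
          + ((k : ℝ) + 2) * uu k f z ^ k * w1 (rho z))) (rho z, z 0) := by
    have := (hcon.mul ((hPp z k).mul (hff.mul hw))).add ((hPp z (k + 2)).mul hw1)
    refine this.congr ?_ ?_
    · simp only [e, Pi.mul_apply]; push_cast; field_simp; ring
    · simp only [e, Pi.mul_apply]; push_cast; field_simp; ring
  have h2 : HasPD (fun q : ℝ × ℝ => ((k : ℝ) + 2) * (Phi f q ^ k * (q.2 * w q.1)))
        (z 0 * (((k : ℝ) + 2) * k * (uu k f z ^ k / uu k f z ^ 2) *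
            (f (rho z) * f1 (rho z)) * w (rho z)
          + ((k : ℝ) + 2) * uu k f z ^ k * w1 (rho z)))
        (((k : ℝ) + 2) * k * (uu k f z ^ k / uu k f z ^ 2) * z 0 ^ 2 * w (rho z)
          + ((k : ℝ) + 2) * uu k f z ^ k * w (rho z)) (rho z, z 0) := by
    have := hcon.mul ((hPp z k).mul ((HasPD.snd (p := (rho z, z 0))).mul hw))
    refine this.congr ?_ ?_
    · simp only [e]; field_simp; ring
    · simp only [e]; field_simp; ring
  have := hess_comp (Ph := fun q => Phi f q ^ (k + 2) * w q.1) h0 z h1 h2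
  have e3 : (fun y : Fin (k + 1) → ℝ => Phi f (rho y, y 0) ^ (k + 2) * w (rho y))
    = fun y => uu k f y ^ (k + 2) * w (rho y) := rfl
  simp only [e3] at this
  rw [this]
  simp only [e]
  congr 1
  · rw [pow_add]; ring
  · ring

theorem am_of_star {f1 f2 : ℝ → ℝ} (h : Prof f f1 f2) (hk : 1 ≤ k) {w1 : ℝ → ℝ} {w2 : ℝ}
    (z : Fin (k + 1) → ℝ) (ho : OmData (om k f f1 f2) w1 (rho z) w2)
    (star : 2 * rho z * f (rho z) ^ 2 * f1 (rho z) * w2 +
      (f (rho z) ^ 2 * f1 (rho z) + 4 * ((k : ℝ) + 2) * rho z * f (rho z) * f1 (rho z) ^ 2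
        + ((k : ℝ) - 1) * f (rho z) ^ 2 * (f1 (rho z) + 2 * rho z * f2 (rho z))) * w1 (rho z) +
      ((k : ℝ) + 2) * ((k : ℝ) + 1) * f1 (rho z) * (f (rho z) * f1 (rho z)
        + 2 * rho z * (f1 (rho z) ^ 2 + f (rho z) * f2 (rho z))) * om k f f1 f2 (rho z) = 0) :
    AffineMaximalAt (uu k f) z := by
  have hP := uu_pos (k := k) h z
  have h0 := h.p0 _ (rho_nonneg z)
  have h1 := h.p1 _ (rho_nonneg z)
  have h2 := h.p2 _ (rho_nonneg z)
  unfold AffineMaximalAt cofactor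
  have hw : weight (uu k f) = fun y => uu k f y ^ (k + 2) * om k f f1 f2 (rho y) :=
    funext fun y => weight_uu h hk y
  rw [hw, hess_w h z ho, hess_uu h z]
  have hal : 2 * f (rho z) * f1 (rho z) / uu k f z ≠ 0 := by positivity
  have esq : sq (tl z) = rho z := rfl
  have hsq := uu_sq (k := k) (f := f) z
  have hD := alg_D0 (f (rho z)) (f1 (rho z)) (f2 (rho z)) (rho z) (z 0) (uu k f z) hP.ne' hsq
  have hmin := alg_minor (f (rho z)) (f1 (rho z)) (f2 (rho z)) (z 0) (uu k f z) hP.ne' hsq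
  have hDne : 2 * f (rho z) ^ 3 * (f1 (rho z) + 2 * rho z * f2 (rho z)) / uu k f z ^ 4 ≠ 0 := by
    positivity
  rw [bmat_inv _ _ _ _ _ hal (by rw [esq, hD]; exact hDne)]
  rw [esq, hD, hmin]
  have hA := alg_A (k : ℝ) (f (rho z)) (f1 (rho z)) (f2 (rho z)) (rho z)
    (om k f f1 f2 (rho z)) (w1 (rho z)) w2 (uu k f z) (uu k f z ^ k) (z 0 ^ 2)
    h0.ne' h1.ne' h2.ne' hP.ne' (by rw [hsq]; ring) star
  have i1 : -(4 * f (rho z) ^ 3 * f2 (rho z) / uu k f z ^ 4) /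
      (2 * f (rho z) * f1 (rho z) / uu k f z *
        (2 * f (rho z) ^ 3 * (f1 (rho z) + 2 * rho z * f2 (rho z)) / uu k f z ^ 4))
      = -f2 (rho z) * uu k f z / (f (rho z) * f1 (rho z) *
        (f1 (rho z) + 2 * rho z * f2 (rho z))) := by
    field_simp
    ring
  have i2 : -(z 0 * (-2 * f (rho z) * f1 (rho z) / uu k f z ^ 3)) /
      (2 * f (rho z) ^ 3 * (f1 (rho z) + 2 * rho z * f2 (rho z)) / uu k f z ^ 4)
      = z 0 * (f1 (rho z) * uu k f z / (f (rho z) ^ 2 *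
        (f1 (rho z) + 2 * rho z * f2 (rho z)))) := by
    field_simp
  rw [i1, i2]
  have hsum : ∀ (A B : Matrix (Fin (k + 1)) (Fin (k + 1)) ℝ) (c : ℝ),
      ∑ i, ∑ j, (c • A) i j * B i j = c * ∑ i, ∑ j, A i j * B i j := by
    intro A B c
    rw [Finset.mul_sum]
    refine Finset.sum_congr rfl fun i _ => ?_
    rw [Finset.mul_sum]
    refine Finset.sum_congr rfl fun j _ => ?_
    rw [Matrix.smul_apply, smul_eq_mul, mul_assoc]
  rw [hsum, bmat_inner, esq]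
  refine mul_eq_zero_of_right _ ?_
  rw [← hA]
  ring

end Vale.Agent.P252
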