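import Mathlib
import Vale.Agent.P252.CalcW

namespace Vale.Agent.P252

open scoped ContDiff

/-- `ψ` -/
noncomputable def ps (k : ℕ) (f1 f2 : ℝ → ℝ) (t : ℝ) : ℝ :=
  (2 * f1 t) ^ (k - 1) * (2 * f1 t + 4 * t * f2 t)

/-- the value of the logarithmic derivative -/
noncomputable def RR (k : ℕ) (f f1 f2 : ℝ → ℝ) (t : ℝ) : ℝ :=
  ((k : ℝ) + 3) * (f1 t / f t + (f1 t + 4 * t * f2 t) / (k * f t + 4 * t * f1 t))

section

variable {k : ℕ} {f f1 f2 f3 : ℝ → ℝ}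

lemma hasDerivAt_ps (hk : 2 ≤ k) (d2 : ∀ t, HasDerivAt f1 (f2 t) t)
    (d3 : ∀ t, HasDerivAt f2 (f3 t) t) (t : ℝ) :
    HasDerivAt (ps k f1 f2) (((k : ℝ) - 1) * (2 * f1 t) ^ (k - 2) * (2 * f2 t) *
      (2 * f1 t + 4 * t * f2 t) + (2 * f1 t) ^ (k - 1) * (6 * f2 t + 4 * t * f3 t)) t := by
  unfold ps
  have h1 := ((d2 t).const_mul 2).pow (k - 1)
  have h2 := ((d2 t).const_mul 2).add (((hasDerivAt_id t).const_mul 4).mul (d3 t))
  have h3 := h1.mul h2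
  refine h3.congr_deriv ?_
  obtain ⟨m, rfl⟩ : ∃ m, k = m + 2 := ⟨k - 2, by omega⟩
  simp
  ring

lemma ps_pos (h : Prof f f1 f2) {t : ℝ} (ht : 0 ≤ t) : 0 < ps k f1 f2 t := by
  have h1 := h.p1 _ ht
  have h2 := h.p2 _ ht
  have h3 : 0 < 2 * f1 t + 4 * t * f2 t := by linarith
  unfold ps
  positivity

lemma den_pos (hk : 1 ≤ k) (h : Prof f f1 f2) {t : ℝ} (ht : 0 ≤ t) :
    0 < (k : ℝ) * f t + 4 * t * f1 t := by
  have h0 := h.p0 _ ht
  have h1 := h.p1 _ ht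
  have : (0 : ℝ) < k := by exact_mod_cast hk
  positivity

/-- logarithmic derivative of `ψ` -/
lemma ps_log (hk : 2 ≤ k) (h : Prof f f1 f2) (d3 : ∀ t, HasDerivAt f2 (f3 t) t)
    {t : ℝ} (ht : 0 ≤ t) :
    deriv (ps k f1 f2) t / ps k f1 f2 t = ((k : ℝ) - 1) * f2 t / f1 t +
      (6 * f2 t + 4 * t * f3 t) / (2 * (f1 t + 2 * t * f2 t)) := by
  rw [(hasDerivAt_ps hk h.d2 d3 t).deriv]
  have h1 := h.p1 _ ht
  have h2 := h.p2 _ ht
  have h3 : 0 < 2 * f1 t + 4 * t * f2 t := by linarith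
  have h4 : 2 * (f1 t + 2 * t * f2 t) = 2 * f1 t + 4 * t * f2 t := by ring
  unfold ps
  rw [h4]
  obtain ⟨m, rfl⟩ : ∃ m, k = m + 2 := ⟨k - 2, by omega⟩
  have e1 : m + 2 - 2 = m := by omega
  have e2 : m + 2 - 1 = m + 1 := by omega
  rw [e1, e2, pow_succ]
  have h5 : 0 < (2 * f1 t) ^ m := by positivity
  generalize (2 * f1 t) ^ m = X at *
  generalize 2 * f1 t + 4 * t * f2 t = Y at *
  field_simp

lemma hasDerivAt_GG (h : Prof f f1 f2) (hps : ∀ t, DifferentiableAt ℝ (ps k f1 f2) t) (t : ℝ) :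
    HasDerivAt (GG k f f1 f2) (((k : ℝ) + 2) * f t ^ (k + 1) * f1 t * ps k f1 f2 t +
      f t ^ (k + 2) * deriv (ps k f1 f2) t) t := by
  have h1 := ((h.d1 t).pow (k + 2)).mul (hps t).hasDerivAt
  refine h1.congr_deriv ?_
  simp

lemma lam_eq (hk : 1 ≤ k) (h : Prof f f1 f2) (hps : ∀ t, DifferentiableAt ℝ (ps k f1 f2) t)
    {t : ℝ} (ht : 0 ≤ t)
    (hode : deriv (ps k f1 f2) t * (f t * (k * f t + 4 * t * f1 t)) =
      ps k f1 f2 t * (f1 t * (k * f t + 4 * t * f1 t)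
        + ((k : ℝ) + 3) * f t * (f1 t + 4 * t * f2 t))) :
    lam k f f1 f2 t = RR k f f1 f2 t ∧ deriv (ps k f1 f2) t / ps k f1 f2 t =
      f1 t / f t + ((k : ℝ) + 3) * (f1 t + 4 * t * f2 t) / (k * f t + 4 * t * f1 t) := by
  have h0 := h.p0 _ ht
  have hp := ps_pos (k := k) h ht
  have hd := den_pos hk h ht
  have h2 : deriv (ps k f1 f2) t / ps k f1 f2 t =
      f1 t / f t + ((k : ℝ) + 3) * (f1 t + 4 * t * f2 t) / (k * f t + 4 * t * f1 t) := by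
    have : deriv (ps k f1 f2) t = ps k f1 f2 t * (f1 t * (k * f t + 4 * t * f1 t)
        + ((k : ℝ) + 3) * f t * (f1 t + 4 * t * f2 t)) / (f t * (k * f t + 4 * t * f1 t)) := by
      rw [eq_div_iff (by positivity)]
      exact hode
    rw [this]
    generalize (k : ℝ) * f t + 4 * t * f1 t = X at *
    generalize f1 t + 4 * t * f2 t = Y at *
    field_simp
  refine ⟨?_, h2⟩
  unfold lam
  rw [(hasDerivAt_GG h hps t).deriv]
  have h3 : GG k f f1 f2 t = f t ^ (k + 2) * ps k f1 f2 t := rfl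
  rw [h3]
  have h4 : (((k : ℝ) + 2) * f t ^ (k + 1) * f1 t * ps k f1 f2 t +
      f t ^ (k + 2) * deriv (ps k f1 f2) t) / (f t ^ (k + 2) * ps k f1 f2 t) =
      ((k : ℝ) + 2) * f1 t / f t + deriv (ps k f1 f2) t / ps k f1 f2 t := by
    rw [pow_succ (f t) (k + 1)]
    field_simp
  rw [h4, h2]
  unfold RR
  ring

lemma hasDerivAt_RR (hk : 1 ≤ k) (h : Prof f f1 f2) (d3 : ∀ t, HasDerivAt f2 (f3 t) t)
    {t : ℝ} (ht : 0 ≤ t) :
    HasDerivAt (RR k f f1 f2) (((k : ℝ) + 3) * (f2 t / f t - f1 t ^ 2 / f t ^ 2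
      + (5 * f2 t + 4 * t * f3 t) / (k * f t + 4 * t * f1 t)
      - (f1 t + 4 * t * f2 t) * ((k + 4) * f1 t + 4 * t * f2 t) /
        (k * f t + 4 * t * f1 t) ^ 2)) t := by
  have h0 := h.p0 _ ht
  have hd := den_pos hk h ht
  unfold RR
  have a1 := (h.d2 t).div (h.d1 t) h0.ne'
  have a2 := (h.d2 t).add (((hasDerivAt_id t).const_mul 4).mul (d3 t))
  have a3 := ((h.d1 t).const_mul (k : ℝ)).add (((hasDerivAt_id t).const_mul 4).mul (h.d2 t))
  have a4 := a2.div a3 hd.ne'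
  have a5 := (a1.add a4).const_mul ((k : ℝ) + 3)
  refine a5.congr_deriv ?_
  simp only [id, Pi.add_apply, Pi.mul_apply]
  congr 1
  have e1 : (f2 t * f t - f1 t * f1 t) / f t ^ 2 = f2 t / f t - f1 t ^ 2 / f t ^ 2 := by
    field_simp
  rw [e1]
  generalize hX : (k : ℝ) * f t + 4 * t * f1 t = X at *
  field_simp
  ring

theorem star_of_ode (hk : 2 ≤ k) (h : Prof f f1 f2) (d3 : ∀ t, HasDerivAt f2 (f3 t) t)
    (hG : ∀ t, DifferentiableAt ℝ (GG k f f1 f2) t)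
    (hG2 : ∀ t, DifferentiableAt ℝ (deriv (GG k f f1 f2)) t)
    (hode : ∀ t, 0 ≤ t → deriv (ps k f1 f2) t * (f t * (k * f t + 4 * t * f1 t)) =
      ps k f1 f2 t * (f1 t * (k * f t + 4 * t * f1 t)
        + ((k : ℝ) + 3) * f t * (f1 t + 4 * t * f2 t))) (t : ℝ) (ht : 0 ≤ t) :
    ∃ w2, OmData (om k f f1 f2) (om1 k f f1 f2) t w2 ∧
      2 * t * f t ^ 2 * f1 t * w2 +
      (f t ^ 2 * f1 t + 4 * ((k : ℝ) + 2) * t * f t * f1 t ^ 2
        + ((k : ℝ) - 1) * f t ^ 2 * (f1 t + 2 * t * f2 t)) * om1 k f f1 f2 t +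
      ((k : ℝ) + 2) * ((k : ℝ) + 1) * f1 t * (f t * f1 t
        + 2 * t * (f1 t ^ 2 + f t * f2 t)) * om k f f1 f2 t = 0 := by
  have hk1 : 1 ≤ k := by omega
  have hps : ∀ t, DifferentiableAt ℝ (ps k f1 f2) t := fun t =>
    (hasDerivAt_ps hk h.d2 d3 t).differentiableAt
  have h0 := h.p0 _ ht
  have h1 := h.p1 _ ht
  have h2 := h.p2 _ ht
  have hd := den_pos hk1 h ht
  have hGp := GG_pos (k := k) h ht
  have hlam := lam_eq hk1 h hps ht (hode t ht)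
  have hdlam : DifferentiableAt ℝ (lam k f f1 f2) t := (hG2 t).div (hG t) hGp.ne'
  have hom := hasDerivAt_om (k := k) h hG ht
  have hom1 : HasDerivAt (om1 k f f1 f2) (-th k * (deriv (lam k f f1 f2) t * om k f f1 f2 t
      + lam k f f1 f2 t * om1 k f f1 f2 t)) t := by
    have := ((hdlam.hasDerivAt.const_mul (-th k)).mul hom)
    refine this.congr_deriv ?_
    ring
  have hk3 : (k : ℝ) + 3 ≠ 0 := by positivity
  refine ⟨_, ⟨fun s hs => hasDerivAt_om h hG hs, hom1⟩, ?_⟩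
  have hL : -th k * lam k f f1 f2 t = -((k : ℝ) + 2) * (f1 t / f t +
      (f1 t + 4 * t * f2 t) / (k * f t + 4 * t * f1 t)) := by
    rw [hlam.1]
    unfold RR th
    generalize (f1 t / f t + (f1 t + 4 * t * f2 t) / (k * f t + 4 * t * f1 t)) = X
    field_simp
  have hom1e : om1 k f f1 f2 t = (-th k * lam k f f1 f2 t) * om k f f1 f2 t := rfl
  rcases ht.lt_or_eq with hpos | hzero
  · have hev : lam k f f1 f2 =ᶠ[nhds t] RR k f f1 f2 := by
      filter_upwards [Ioi_mem_nhds hpos] with s hs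
      exact (lam_eq hk1 h hps (le_of_lt hs) (hode s (le_of_lt hs))).1
    have hdl : deriv (lam k f f1 f2) t = ((k : ℝ) + 3) * (f2 t / f t - f1 t ^ 2 / f t ^ 2
      + (5 * f2 t + 4 * t * f3 t) / (k * f t + 4 * t * f1 t)
      - (f1 t + 4 * t * f2 t) * ((k + 4) * f1 t + 4 * t * f2 t) /
        (k * f t + 4 * t * f1 t) ^ 2) := by
      rw [hev.deriv_eq, (hasDerivAt_RR hk1 h d3 ht).deriv]
    have hLp : -th k * deriv (lam k f f1 f2) t = -((k : ℝ) + 2) *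
      (f2 t / f t - f1 t ^ 2 / f t ^ 2
      + (5 * f2 t + 4 * t * f3 t) / (k * f t + 4 * t * f1 t)
      - (f1 t + 4 * t * f2 t) * ((k + 4) * f1 t + 4 * t * f2 t) /
        (k * f t + 4 * t * f1 t) ^ 2) := by
      rw [hdl]
      unfold th
      generalize (f2 t / f t - f1 t ^ 2 / f t ^ 2
      + (5 * f2 t + 4 * t * f3 t) / (k * f t + 4 * t * f1 t)
      - (f1 t + 4 * t * f2 t) * ((k + 4) * f1 t + 4 * t * f2 t) /
        (k * f t + 4 * t * f1 t) ^ 2) = X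
      field_simp
    have hE := ps_log hk h d3 ht
    rw [hlam.2] at hE
    have hB := alg_B (k : ℝ) (f t) (f1 t) (f2 t) (f3 t) t _ _ h0.ne' h1.ne' h2.ne' hd.ne'
      hL hLp hE.symm
    rw [hom1e]
    linear_combination (om k f f1 f2 t) * hB
  · subst hzero
    rw [hom1e, hL]
    have hk0 : (k : ℝ) ≠ 0 := by
      have : (0 : ℝ) < k := by exact_mod_cast hk1
      exact this.ne'
    simp only [mul_zero, zero_mul, add_zero, zero_add]
    field_simp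
    ring

end


lemma contDiff_uu {k : ℕ} {f f1 f2 : ℝ → ℝ} (hf : ContDiff ℝ ((⊤ : ℕ∞) : WithTop ℕ∞) f)
    (h : Prof f f1 f2) : ContDiff ℝ ((⊤ : ℕ∞) : WithTop ℕ∞) (uu k f) := by
  unfold uu Phi
  have hr : ContDiff ℝ ((⊤ : ℕ∞) : WithTop ℕ∞) (rho (k := k)) := by
    unfold rho sq tl
    exact ContDiff.sum fun i _ => (contDiff_apply ℝ ℝ i.succ).pow 2
  refine ContDiff.sqrt (((hf.comp hr).pow 2).add ((contDiff_apply ℝ ℝ 0).pow 2)) ?_
  intro z
  have := h.p0 _ (rho_nonneg z)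
  have h3 : 0 < f (rho z) ^ 2 + z 0 ^ 2 := by positivity
  exact h3.ne'

lemma not_quadratic {k : ℕ} {f : ℝ → ℝ} (h0 : 0 < f 0) :
    ¬ ∃ (A : Matrix (Fin (k+1)) (Fin (k+1)) ℝ) (b : Fin (k+1) → ℝ) (c : ℝ),
      ∀ x, uu k f x = (1/2) * (x ⬝ᵥ A.mulVec x) + b ⬝ᵥ x + c := by
  rintro ⟨A, b, c, h⟩
  have key : ∀ s : ℝ, Real.sqrt (f 0 ^ 2 + s ^ 2) = (1/2) * A 0 0 * s ^ 2 + b 0 * s + c := by
    intro s
    have h1 := h (Pi.single 0 s)
    have e1 : rho (Pi.single 0 s : Fin (k+1) → ℝ) = 0 := by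
      unfold rho sq tl
      refine Finset.sum_eq_zero fun i _ => ?_
      rw [Pi.single_eq_of_ne (Fin.succ_ne_zero i)]
      simp
    unfold uu Phi at h1
    simp only [e1, Pi.single_eq_same] at h1
    rw [h1]
    simp
    ring
  have k0 := key 0
  have k1 := key 1
  have k1' := key (-1)
  have k2 := key 2
  have e1 : Real.sqrt (f 0 ^ 2 + (-1) ^ 2) = Real.sqrt (f 0 ^ 2 + 1 ^ 2) := by norm_num
  have e0 : Real.sqrt (f 0 ^ 2 + 0 ^ 2) = f 0 := by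
    rw [zero_pow two_ne_zero, add_zero, Real.sqrt_sq h0.le]
  rw [e0] at k0
  rw [e1] at k1'
  have q1 : Real.sqrt (f 0 ^ 2 + 1 ^ 2) ^ 2 = f 0 ^ 2 + 1 ^ 2 := Real.sq_sqrt (by positivity)
  have q2 : Real.sqrt (f 0 ^ 2 + 2 ^ 2) ^ 2 = f 0 ^ 2 + 2 ^ 2 := Real.sq_sqrt (by positivity)
  set a := Real.sqrt (f 0 ^ 2 + 1 ^ 2)
  set d := Real.sqrt (f 0 ^ 2 + 2 ^ 2)
  have hd : d = 4 * a - 3 * f 0 := by linarith
  rw [hd] at q2
  have h3 : 2 * f 0 * a = 2 * f 0 ^ 2 + 1 := by nlinarith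
  have h4 : (2 * f 0 * a) ^ 2 = (2 * f 0 ^ 2 + 1) ^ 2 := by rw [h3]
  have h5 : 4 * f 0 ^ 2 * a ^ 2 = (2 * f 0 ^ 2 + 1) ^ 2 := by linarith
  rw [q1] at h5
  nlinarith

theorem main_of_profile (k : ℕ) (hk : 9 ≤ k) (f : ℝ → ℝ)
    (hf : ContDiff ℝ ((⊤ : ℕ∞) : WithTop ℕ∞) f)
    (hpos : ∀ t, 0 ≤ t → 0 < f t ∧ 0 < deriv f t ∧ 0 < deriv f t + 2 * t * deriv (deriv f) t)
    (hode : ∀ t, 0 < t →
      deriv (fun t => (2 * deriv f t) ^ (k-1) * (2 * deriv f t + 4 * t * deriv (deriv f) t)) t *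
        (f t * (k * f t + 4 * t * deriv f t)) =
      ((2 * deriv f t) ^ (k-1) * (2 * deriv f t + 4 * t * deriv (deriv f) t)) *
        (deriv f t * (k * f t + 4 * t * deriv f t)
          + (k+3) * f t * (deriv f t + 4 * t * deriv (deriv f) t))) :
    ∃ u : (Fin (k+1) → ℝ) → ℝ, ContDiff ℝ ((⊤ : ℕ∞) : WithTop ℕ∞) u ∧
      (∀ x, (hess u x).PosDef) ∧ (∀ x, AffineMaximalAt u x) ∧
      ¬ ∃ (A : Matrix (Fin (k+1)) (Fin (k+1)) ℝ) (b : Fin (k+1) → ℝ) (c : ℝ),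
        ∀ x, u x = (1/2) * (x ⬝ᵥ A.mulVec x) + b ⬝ᵥ x + c := by
  have c1 := (contDiff_infty_iff_deriv.1 hf)
  have c2 := (contDiff_infty_iff_deriv.1 c1.2)
  have c3 := (contDiff_infty_iff_deriv.1 c2.2)
  have h : Prof f (deriv f) (deriv (deriv f)) :=
    ⟨fun t => (c1.1 t).hasDerivAt, fun t => (c2.1 t).hasDerivAt, fun t ht => (hpos t ht).1,
      fun t ht => (hpos t ht).2.1, fun t ht => (hpos t ht).2.2⟩
  have d3 : ∀ t, HasDerivAt (deriv (deriv f)) (deriv (deriv (deriv f)) t) t := fun t =>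
    (c3.1 t).hasDerivAt
  have cid : ContDiff ℝ ((⊤ : ℕ∞) : WithTop ℕ∞) (fun t : ℝ => t) := contDiff_id
  have cps : ContDiff ℝ ((⊤ : ℕ∞) : WithTop ℕ∞) (ps k (deriv f) (deriv (deriv f))) := by
    unfold ps
    exact ((contDiff_const.mul c1.2).pow _).mul
      ((contDiff_const.mul c1.2).add ((contDiff_const.mul cid).mul c2.2))
  have cGG : ContDiff ℝ ((⊤ : ℕ∞) : WithTop ℕ∞) (GG k f (deriv f) (deriv (deriv f))) :=
    (hf.pow _).mul cps
  have g1 := contDiff_infty_iff_deriv.1 cGG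
  have g2 := contDiff_infty_iff_deriv.1 g1.2
  have p1 := contDiff_infty_iff_deriv.1 cps
  have hk2 : 2 ≤ k := by omega
  have hode' : ∀ t, 0 ≤ t → deriv (ps k (deriv f) (deriv (deriv f))) t *
      (f t * (k * f t + 4 * t * deriv f t)) =
      ps k (deriv f) (deriv (deriv f)) t * (deriv f t * (k * f t + 4 * t * deriv f t)
        + ((k : ℝ) + 3) * f t * (deriv f t + 4 * t * deriv (deriv f) t)) := by
    have hcl : IsClosed {t : ℝ | deriv (ps k (deriv f) (deriv (deriv f))) t *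
      (f t * (k * f t + 4 * t * deriv f t)) =
      ps k (deriv f) (deriv (deriv f)) t * (deriv f t * (k * f t + 4 * t * deriv f t)
        + ((k : ℝ) + 3) * f t * (deriv f t + 4 * t * deriv (deriv f) t))} := by
      have q0 := hf.continuous
      have q1 := c1.2.continuous
      have q2 := c2.2.continuous
      have q3 := p1.2.continuous
      have q4 := cps.continuous
      exact isClosed_eq (by fun_prop) (by fun_prop)
    have hsub : Set.Ioi (0 : ℝ) ⊆ {t : ℝ | deriv (ps k (deriv f) (deriv (deriv f))) t *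
      (f t * (k * f t + 4 * t * deriv f t)) =
      ps k (deriv f) (deriv (deriv f)) t * (deriv f t * (k * f t + 4 * t * deriv f t)
        + ((k : ℝ) + 3) * f t * (deriv f t + 4 * t * deriv (deriv f) t))} :=
      fun t ht => hode t ht
    have := closure_minimal hsub hcl
    rw [closure_Ioi] at this
    exact fun t ht => this ht
  refine ⟨uu k f, contDiff_uu hf h, fun x => hess_uu_posDef h x, fun x => ?_,
    not_quadratic (h.p0 0 le_rfl)⟩
  obtain ⟨w2, ho, hstar⟩ := star_of_ode hk2 h d3 g1.1 g2.1 hode' (rho x) (rho_nonneg x)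
  exact am_of_star h (by omega) x ho hstar

end Vale.Agent.P252
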