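import Vale.Agent.P252.Volterra

open MeasureTheory Set Filter Topology intervalIntegral
open scoped NNReal ContDiff

namespace Vale.Agent.P252

/-- smooth upper clamp: identity on `(-∞,2]`, bounded above by `3`. -/
noncomputable def chi (x : ℝ) : ℝ :=
  x * Real.smoothTransition (3 - x) + 3 * (1 - Real.smoothTransition (3 - x))

lemma chi_eq {x : ℝ} (hx : x ≤ 2) : chi x = x := by
  unfold chi
  rw [Real.smoothTransition.one_of_one_le (by linarith)]
  ring

lemma chi_le (x : ℝ) : chi x ≤ 3 := by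
  unfold chi
  rcases le_or_gt x 3 with h | h
  · have h0 := Real.smoothTransition.nonneg (3 - x)
    nlinarith
  · rw [Real.smoothTransition.zero_of_nonpos (by linarith)]
    linarith

lemma chi_contDiff : ContDiff ℝ ∞ chi := by
  unfold chi
  have h1 : ContDiff ℝ ∞ fun x : ℝ => Real.smoothTransition (3 - x) :=
    Real.smoothTransition.contDiff.comp (by fun_prop)
  fun_prop

lemma chi_continuous : Continuous chi := chi_contDiff.continuous

lemma chi_lipschitz : ∃ M : ℝ, 1 ≤ M ∧ ∀ x y, |chi x - chi y| ≤ M * |x - y| := by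
  have hd : Differentiable ℝ chi := chi_contDiff.differentiable (by norm_num)
  have hc : Continuous (deriv chi) := chi_contDiff.continuous_deriv (by norm_num)
  obtain ⟨M0, hM0⟩ := (isCompact_Icc (a := (1:ℝ)) (b := 4)).exists_bound_of_continuousOn
    hc.continuousOn
  have hbound : ∀ x, ‖deriv chi x‖ ≤ max M0 1 := by
    intro x
    rcases lt_or_ge x 1 with h | h
    · have : deriv chi x = 1 := by
        have he : chi =ᶠ[𝓝 x] fun x => x := by
          filter_upwards [Iio_mem_nhds h] with y hy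
          exact chi_eq (by linarith [mem_Iio.1 hy])
        rw [he.deriv_eq]
        exact deriv_id x
      rw [this]
      simp
    · rcases le_or_gt x 4 with h4 | h4
      · exact le_trans (hM0 x ⟨h, h4⟩) (le_max_left _ _)
      · have : deriv chi x = 0 := by
          have he : chi =ᶠ[𝓝 x] fun _ => (3:ℝ) := by
            filter_upwards [Ioi_mem_nhds h4] with y hy
            unfold chi
            rw [Real.smoothTransition.zero_of_nonpos (by linarith [mem_Ioi.1 hy])]
            ring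
          rw [he.deriv_eq]
          exact deriv_const x _
        rw [this]
        simp
  refine ⟨max M0 1, le_max_right _ _, fun x y => ?_⟩
  have := Convex.norm_image_sub_le_of_norm_deriv_le (f := chi) (s := univ) (C := max M0 1)
    (x := y) (y := x) (fun z _ => hd z) (fun z _ => hbound z) convex_univ (mem_univ _) (mem_univ _)
  simpa [Real.norm_eq_abs] using this

/-- smooth function equal to `r` for `r ≥ 0` and bounded below by `-1/10`. -/
noncomputable def mr (r : ℝ) : ℝ := r * Real.smoothTransition (1 + 10 * r)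

lemma mr_eq {r : ℝ} (hr : 0 ≤ r) : mr r = r := by
  unfold mr
  rw [Real.smoothTransition.one_of_one_le (by linarith)]
  ring

lemma mr_ge (r : ℝ) : -(1/10) ≤ mr r := by
  rcases le_or_gt 0 r with h | h
  · rw [mr_eq h]; linarith
  · unfold mr
    rcases le_or_gt r (-(1/10)) with h2 | h2
    · rw [Real.smoothTransition.zero_of_nonpos (by linarith)]
      linarith
    · have h0 := Real.smoothTransition.le_one (1 + 10 * r)
      nlinarith

lemma mr_contDiff : ContDiff ℝ ∞ mr := by
  unfold mr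
  have h1 : ContDiff ℝ ∞ fun x : ℝ => Real.smoothTransition (1 + 10 * x) :=
    Real.smoothTransition.contDiff.comp (by fun_prop)
  fun_prop

lemma exp_chi_le (x : ℝ) : Real.exp (chi x) ≤ 27 := by
  have h1 : Real.exp (chi x) ≤ Real.exp 3 := Real.exp_le_exp.2 (chi_le x)
  have h2 : Real.exp 3 = Real.exp 1 ^ 3 := by
    rw [← Real.exp_nat_mul]; norm_num
  have h3 : Real.exp 1 ≤ 3 := by
    have := Real.exp_one_lt_d9
    linarith
  have h4 : Real.exp 1 ^ 3 ≤ 3 ^ 3 := pow_le_pow_left₀ (Real.exp_pos _).le h3 3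
  linarith

lemma exp_lip_aux {x y : ℝ} : Real.exp y - Real.exp x ≤ Real.exp y * (y - x) := by
  have h1 : Real.exp x = Real.exp y * Real.exp (x - y) := by
    rw [← Real.exp_add]; congr 1; ring
  have h2 : x - y + 1 ≤ Real.exp (x - y) := Real.add_one_le_exp _
  have h3 : 0 < Real.exp y := Real.exp_pos _
  nlinarith

lemma exp_chi_lip {M : ℝ} (hM : ∀ x y, |chi x - chi y| ≤ M * |x - y|) (x y : ℝ) :
    |Real.exp (chi x) - Real.exp (chi y)| ≤ 27 * M * |x - y| := by
  have key : ∀ u v : ℝ, chi u ≤ chi v →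
      |Real.exp (chi u) - Real.exp (chi v)| ≤ 27 * |chi u - chi v| := by
    intro u v huv
    have h1 := exp_lip_aux (x := chi u) (y := chi v)
    have h2 : Real.exp (chi u) ≤ Real.exp (chi v) := Real.exp_le_exp.2 huv
    have h3 := exp_chi_le v
    rw [abs_sub_comm, abs_of_nonneg (by linarith), abs_sub_comm, abs_of_nonneg (by linarith)]
    calc Real.exp (chi v) - Real.exp (chi u) ≤ Real.exp (chi v) * (chi v - chi u) := h1
      _ ≤ 27 * (chi v - chi u) := by
        apply mul_le_mul_of_nonneg_right h3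
        linarith
  have h : |Real.exp (chi x) - Real.exp (chi y)| ≤ 27 * |chi x - chi y| := by
    rcases le_total (chi x) (chi y) with h | h
    · exact key x y h
    · rw [abs_sub_comm, abs_sub_comm (chi x)]
      exact key y x h
  have h2 := hM x y
  calc _ ≤ 27 * |chi x - chi y| := h
    _ ≤ 27 * (M * |x - y|) := by linarith
    _ = _ := by ring

/-- second component of the vector field. -/
noncomputable def F2 (k : ℝ) (r q y : ℝ) : ℝ :=
  q / 2 + (k + 3) / 2 * (q * (2 * y - 1) / (k + 2 * mr r * q))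

noncomputable def qq (k a c : ℝ) : ℝ := Real.exp (chi (c / k - a))
noncomputable def yy (b c : ℝ) : ℝ := Real.exp (chi (b - c))

noncomputable def vfld (k : ℝ) (r a b c : ℝ) : ℝ × ℝ :=
  (qq k a c / 2, F2 k r (qq k a c) (yy b c))

lemma den_ge {k : ℝ} (hk : 9 ≤ k) (r : ℝ) {q : ℝ} (hq : 0 < q) (hq' : q ≤ 27) :
    3 ≤ k + 2 * mr r * q := by
  have := mr_ge r
  nlinarith

lemma vfld_contDiff {k : ℝ} (hk : 9 ≤ k) :
    ContDiff ℝ ∞ fun p : ℝ × ℝ × ℝ × ℝ => vfld k p.1 p.2.1 p.2.2.1 p.2.2.2 := by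
  have hq : ContDiff ℝ ∞ fun p : ℝ × ℝ × ℝ × ℝ => qq k p.2.1 p.2.2.2 := by
    unfold qq
    have h1 : ContDiff ℝ ∞ fun p : ℝ × ℝ × ℝ × ℝ => p.2.2.2 / k - p.2.1 := by fun_prop
    exact (chi_contDiff.comp h1).exp
  have hy : ContDiff ℝ ∞ fun p : ℝ × ℝ × ℝ × ℝ => yy p.2.2.1 p.2.2.2 := by
    unfold yy
    have h1 : ContDiff ℝ ∞ fun p : ℝ × ℝ × ℝ × ℝ => p.2.2.1 - p.2.2.2 := by fun_prop
    exact (chi_contDiff.comp h1).exp
  have hm : ContDiff ℝ ∞ fun p : ℝ × ℝ × ℝ × ℝ => mr p.1 := mr_contDiff.comp contDiff_fst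
  unfold vfld F2
  apply ContDiff.prodMk
  · exact hq.div_const 2
  · apply (hq.div_const 2).add
    apply contDiff_const.mul
    apply ContDiff.div
    · exact hq.mul ((contDiff_const.mul hy).sub contDiff_const)
    · exact contDiff_const.add ((contDiff_const.mul hm).mul hq)
    · intro p
      have := den_ge hk p.1 (Real.exp_pos (chi (p.2.2.2 / k - p.2.1))) (exp_chi_le _)
      have h2 : 0 < k + 2 * mr p.1 * Real.exp (chi (p.2.2.2 / k - p.2.1)) := by linarith
      exact h2.ne'

lemma R_lip {k : ℝ} (hk : 9 ≤ k) (r : ℝ) {q q' y y' : ℝ} (hq : 0 < q) (hq2 : q ≤ 27)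
    (hq' : 0 < q') (hq2' : q' ≤ 27) (hy : 0 < y) (hy2 : y ≤ 27) :
    |q * (2 * y - 1) / (k + 2 * mr r * q) - q' * (2 * y' - 1) / (k + 2 * mr r * q')| ≤
      6 * k * |q - q'| + 18 * |y - y'| := by
  have hD := den_ge hk r hq hq2
  have hD' := den_ge hk r hq' hq2'
  set D := k + 2 * mr r * q with hDdef
  set D' := k + 2 * mr r * q' with hDdef'
  have hDpos : 0 < D := by linarith
  have hDpos' : 0 < D' := by linarith
  have hid : q * (2 * y - 1) / D - q' * (2 * y' - 1) / D' =
      (k * (2 * y - 1) / (D * D')) * (q - q') + (2 * q' / D') * (y - y') := by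
    have e : q * (2 * y - 1) * D' - q' * (2 * y' - 1) * D =
        k * (2 * y - 1) * (q - q') + 2 * q' * D * (y - y') := by
      rw [hDdef, hDdef']; ring
    field_simp
    linarith
  rw [hid]
  refine le_trans (abs_add_le _ _) ?_
  rw [abs_mul, abs_mul]
  have h1 : |k * (2 * y - 1) / (D * D')| ≤ 6 * k := by
    rw [abs_div, abs_mul, abs_of_pos (by linarith : (0:ℝ) < k), abs_of_pos (mul_pos hDpos hDpos'),
      div_le_iff₀ (mul_pos hDpos hDpos')]
    have h2 : |2 * y - 1| ≤ 53 := abs_le.2 ⟨by linarith, by linarith⟩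
    have h3 : 9 ≤ D * D' := by nlinarith
    have h4 : k * |2 * y - 1| ≤ k * 53 := mul_le_mul_of_nonneg_left h2 (by linarith)
    nlinarith
  have h2 : |2 * q' / D'| ≤ 18 := by
    rw [abs_div, abs_of_pos hDpos', abs_of_pos (by linarith), div_le_iff₀ hDpos']
    nlinarith
  have h3 := mul_le_mul_of_nonneg_right h1 (abs_nonneg (q - q'))
  have h4 := mul_le_mul_of_nonneg_right h2 (abs_nonneg (y - y'))
  linarith

lemma vfld_lip {k : ℝ} (hk : 9 ≤ k) : ∃ L : ℝ, 0 < L ∧ ∀ r a b c a' b' c' η,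
    |a - a'| ≤ η → |b - b'| ≤ η → |c - c'| ≤ η →
      ‖vfld k r a b c - vfld k r a' b' c'‖ ≤ L * η := by
  obtain ⟨M, hM1, hM⟩ := chi_lipschitz
  refine ⟨27 * M + (k + 3) / 2 * (6 * k * (54 * M) + 18 * (54 * M)), by positivity, ?_⟩
  intro r a b c a' b' c' η ha hb hc
  have hη : 0 ≤ η := le_trans (abs_nonneg _) ha
  have hq : |qq k a c - qq k a' c'| ≤ 54 * M * η := by
    have h1 := exp_chi_lip hM (c / k - a) (c' / k - a')
    have h2 : |c / k - a - (c' / k - a')| ≤ 2 * η := by
      have e : c / k - a - (c' / k - a') = (c - c') / k - (a - a') := by ring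
      rw [e]
      have e1 : |(c - c') / k| ≤ η := by
        rw [abs_div, abs_of_pos (by linarith : (0:ℝ) < k), div_le_iff₀ (by linarith)]
        nlinarith
      have e2 := abs_sub ((c - c') / k) (a - a')
      linarith
    unfold qq
    calc _ ≤ 27 * M * |c / k - a - (c' / k - a')| := h1
      _ ≤ 27 * M * (2 * η) := mul_le_mul_of_nonneg_left h2 (by positivity)
      _ = _ := by ring
  have hy : |yy b c - yy b' c'| ≤ 54 * M * η := by
    have h1 := exp_chi_lip hM (b - c) (b' - c')
    have h2 : |b - c - (b' - c')| ≤ 2 * η := by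
      have e : b - c - (b' - c') = (b - b') - (c - c') := by ring
      rw [e]
      have e2 := abs_sub (b - b') (c - c')
      linarith
    unfold yy
    calc _ ≤ 27 * M * |b - c - (b' - c')| := h1
      _ ≤ 27 * M * (2 * η) := mul_le_mul_of_nonneg_left h2 (by positivity)
      _ = _ := by ring
  have hR := R_lip hk r (q := qq k a c) (q' := qq k a' c') (y := yy b c) (y' := yy b' c')
    (Real.exp_pos _) (exp_chi_le _) (Real.exp_pos _) (exp_chi_le _) (Real.exp_pos _) (exp_chi_le _)
  have hη2 : 0 ≤ M * η := by positivity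
  rw [Prod.norm_def]
  apply max_le
  · show |qq k a c / 2 - qq k a' c' / 2| ≤ _
    have e : qq k a c / 2 - qq k a' c' / 2 = (qq k a c - qq k a' c') / 2 := by ring
    rw [e, abs_div, abs_two]
    have h5 : 0 ≤ (k + 3) / 2 * (6 * k * (54 * M) + 18 * (54 * M)) * η := by positivity
    nlinarith
  · show |F2 k r (qq k a c) (yy b c) - F2 k r (qq k a' c') (yy b' c')| ≤ _
    unfold F2
    set R := qq k a c * (2 * yy b c - 1) / (k + 2 * mr r * qq k a c) with hRdef
    set R' := qq k a' c' * (2 * yy b' c' - 1) / (k + 2 * mr r * qq k a' c') with hRdef'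
    have e : qq k a c / 2 + (k + 3) / 2 * R - (qq k a' c' / 2 + (k + 3) / 2 * R') =
      (qq k a c - qq k a' c') / 2 + (k + 3) / 2 * (R - R') := by ring
    rw [e]
    refine le_trans (abs_add_le _ _) ?_
    rw [abs_div, abs_two, abs_mul, abs_of_pos (by linarith : (0:ℝ) < (k + 3) / 2)]
    have h6 : |R - R'| ≤ 6 * k * (54 * M * η) + 18 * (54 * M * η) := by
      refine le_trans hR ?_
      have h7 : 6 * k * |qq k a c - qq k a' c'| ≤ 6 * k * (54 * M * η) :=
        mul_le_mul_of_nonneg_left hq (by linarith)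
      linarith
    have h8 := mul_le_mul_of_nonneg_left h6 (by linarith : (0:ℝ) ≤ (k + 3) / 2)
    calc |qq k a c - qq k a' c'| / 2 + (k + 3) / 2 * |R - R'|
        ≤ (54 * M * η) / 2 + (k + 3) / 2 * (6 * k * (54 * M * η) + 18 * (54 * M * η)) := by
          linarith
      _ = _ := by ring

lemma R_bound {k : ℝ} (hk : 9 ≤ k) (r : ℝ) {q y : ℝ} (hq : 0 < q) (hq2 : q ≤ 27)
    (hy : 0 < y) (hy2 : y ≤ 27) :
    |q * (2 * y - 1) / (k + 2 * mr r * q)| ≤ 27 * 53 := by
  have hD := den_ge hk r hq hq2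
  set D := k + 2 * mr r * q with hDdef
  have hDpos : 0 < D := by linarith
  rw [abs_div, abs_mul, abs_of_pos hDpos, abs_of_pos hq, div_le_iff₀ hDpos]
  have h2 : |2 * y - 1| ≤ 53 := abs_le.2 ⟨by linarith, by linarith⟩
  have h3 : q * |2 * y - 1| ≤ 27 * 53 := mul_le_mul hq2 h2 (abs_nonneg _) (by norm_num)
  nlinarith

lemma vfld_bound {k : ℝ} (hk : 9 ≤ k) (r a b c : ℝ) :
    ‖vfld k r a b c‖ ≤ 27 + (k + 3) / 2 * (27 * 53) := by
  have hR := R_bound hk r (q := qq k a c) (y := yy b c)
    (Real.exp_pos _) (exp_chi_le _) (Real.exp_pos _) (exp_chi_le _)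
  have hq0 : 0 < qq k a c := Real.exp_pos _
  have hq1 : qq k a c ≤ 27 := exp_chi_le _
  rw [Prod.norm_def]
  apply max_le
  · show |qq k a c / 2| ≤ _
    rw [abs_of_pos (by linarith)]
    nlinarith
  · show |F2 k r (qq k a c) (yy b c)| ≤ _
    unfold F2
    refine le_trans (abs_add_le _ _) ?_
    rw [abs_of_pos (by linarith : 0 < qq k a c / 2), abs_mul,
      abs_of_pos (by linarith : (0:ℝ) < (k + 3) / 2)]
    have h8 := mul_le_mul_of_nonneg_left hR (by linarith : (0:ℝ) ≤ (k + 3) / 2)
    linarith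

/-- existence of a smooth global solution of the clamped system. -/
theorem clamped_exists (j : ℕ) (hj : 8 ≤ j) : ∃ a b : ℝ → ℝ,
    ContDiff ℝ ∞ a ∧ ContDiff ℝ ∞ b ∧ a 0 = 0 ∧ b 0 = 0 ∧
    (∀ r, HasDerivAt a (qq ((j:ℝ)+1) (a r) (LA j b r) / 2) r) ∧
    (∀ r, HasDerivAt b (F2 ((j:ℝ)+1) r (qq ((j:ℝ)+1) (a r) (LA j b r)) (yy (b r) (LA j b r))) r) := by
  have hk : (9:ℝ) ≤ (j:ℝ)+1 := by
    have : (8:ℝ) ≤ (j:ℝ) := by exact_mod_cast hj
    linarith
  obtain ⟨L, hL, hLip⟩ := vfld_lip hk
  obtain ⟨y, hy0, hy⟩ := volterra_exists j (vfld ((j:ℝ)+1)) (vfld_contDiff hk).continuous _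
    (vfld_bound hk) L hL hLip
  have hyc : Continuous y := continuous_iff_continuousAt.2 fun r => (hy r).continuousAt
  have hsm : ∀ n : ℕ, ContDiff ℝ n y := by
    intro n
    induction n with
    | zero => exact contDiff_zero.2 hyc
    | succ n ih =>
      have hb : ContDiff ℝ n fun x => (y x).2 := contDiff_snd.comp ih
      have ha : ContDiff ℝ n fun x => (y x).1 := contDiff_fst.comp ih
      have hLA : ContDiff ℝ n (LA j fun x => (y x).2) := by
        unfold LA
        apply ContDiff.log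
        · exact contDiff_const.mul (avg_contDiff n j hb.exp)
        · intro r
          exact (avg_exp_pos j hb.continuous r).ne'
      push_cast
      rw [contDiff_succ_iff_deriv]
      refine ⟨fun r => (hy r).differentiableAt, fun hn => by simp at hn, ?_⟩
      have e : deriv y = fun r => vfld ((j:ℝ)+1) r (y r).1 (y r).2 (LA j (fun x => (y x).2) r) :=
        funext fun r => (hy r).deriv
      rw [e]
      have hP : ContDiff ℝ n fun p : ℝ × ℝ × ℝ × ℝ => vfld ((j:ℝ)+1) p.1 p.2.1 p.2.2.1 p.2.2.2 :=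
        (vfld_contDiff hk).of_le (by exact_mod_cast le_top)
      exact hP.comp (contDiff_id.prodMk (ha.prodMk (hb.prodMk hLA)))
  have hsm' : ContDiff ℝ ∞ y := contDiff_infty.2 hsm
  refine ⟨fun x => (y x).1, fun x => (y x).2, contDiff_fst.comp hsm', contDiff_snd.comp hsm',
    by show (y 0).1 = 0; rw [hy0]; rfl, by show (y 0).2 = 0; rw [hy0]; rfl,
    fun r => ?_, fun r => ?_⟩
  · have := (hy r).hasFDerivAt.fst.hasDerivAt
    simpa [vfld] using this
  · have := (hy r).hasFDerivAt.snd.hasDerivAt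
    simpa [vfld] using this

end Vale.Agent.P252
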