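import Vale.Agent.P252.Clamp
import Vale.Agent.P252.Apriori

open Set Filter Topology
open scoped ContDiff

namespace Vale.Agent.P252

lemma exp_two_gt : (7/2 : ℝ) < Real.exp 2 := by
  have h1 : Real.exp 2 = Real.exp 1 ^ 2 := by
    rw [← Real.exp_nat_mul]; norm_num
  have h2 := Real.exp_one_gt_d9
  rw [h1]
  nlinarith

/-- unclamped smooth solution of the reduced system on `[0,∞)`. -/
theorem unclamped_exists (j : ℕ) (hj : 8 ≤ j) : ∃ a b c : ℝ → ℝ,
    ContDiff ℝ ∞ a ∧ ContDiff ℝ ∞ b ∧ ContDiff ℝ ∞ c ∧ a 0 = 0 ∧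
    (∀ r, 0 ≤ r → HasDerivAt a (Real.exp (c r / ((j:ℝ)+1) - a r) / 2) r) ∧
    (∀ r, 0 ≤ r → HasDerivAt b (Real.exp (c r / ((j:ℝ)+1) - a r) / 2 + ((j:ℝ)+1 + 3) / 2 *
      (Real.exp (c r / ((j:ℝ)+1) - a r) * (2 * Real.exp (b r - c r) - 1) /
        (((j:ℝ)+1) + 2 * r * Real.exp (c r / ((j:ℝ)+1) - a r)))) r) ∧
    (∀ r, r * deriv c r = ((j:ℝ)+1) / 2 * (Real.exp (b r - c r) - 1)) := by
  obtain ⟨a, b, ha, hb, ha0, hb0, hda, hdb⟩ := clamped_exists j hj
  set k : ℝ := (j:ℝ)+1 with hkdef
  have hk : (9:ℝ) ≤ k := by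
    have : (8:ℝ) ≤ (j:ℝ) := by exact_mod_cast hj
    rw [hkdef]; linarith
  have hk0 : 0 < k := by linarith
  let P : ℝ → ℝ := fun r => k * avg j (fun x => Real.exp (b x)) r
  let c : ℝ → ℝ := LA j b
  have hcP : ∀ r, c r = Real.log (P r) := fun r => rfl
  have hPpos : ∀ r, 0 < P r := fun r => avg_exp_pos j hb.continuous r
  have hP : ContDiff ℝ ∞ P := by
    apply contDiff_infty.2
    intro n
    have hbn : ContDiff ℝ n b := hb.of_le (by exact_mod_cast le_top)
    exact contDiff_const.mul (avg_contDiff n j hbn.exp)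
  have hc : ContDiff ℝ ∞ c := hP.log fun r => (hPpos r).ne'
  have hexpc : ∀ r, Real.exp (c r) = P r := fun r => Real.exp_log (hPpos r)
  have hbd : Differentiable ℝ b := hb.differentiable (by norm_num)
  have hcd : Differentiable ℝ c := hc.differentiable (by norm_num)
  have hψd : ∀ x, HasDerivAt (fun x => Real.exp (b x)) (Real.exp (b x) * deriv b x) x :=
    fun x => (hbd x).hasDerivAt.exp
  have hψc : Continuous fun x => Real.exp (b x) * deriv b x := by
    have h1 : Continuous (deriv b) := hb.continuous_deriv (by norm_num)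
    have h2 := hb.continuous
    fun_prop
  have hc' : ∀ r, r * deriv c r = k / 2 * (Real.exp (b r - c r) - 1) := by
    intro r
    have h1 : HasDerivAt P (k * avg (j+2) (fun x => Real.exp (b x) * deriv b x) r) r :=
      (avg_hasDerivAt j hψd hψc r).const_mul k
    have h2 := avg_identity j hψd hψc r
    have h3 : HasDerivAt c ((k * avg (j+2) (fun x => Real.exp (b x) * deriv b x) r) / P r) r :=
      h1.log (hPpos r).ne'
    rw [h3.deriv]
    have h4 : r * (k * avg (j+2) (fun x => Real.exp (b x) * deriv b x) r / P r) =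
      k * (r * avg (j+2) (fun x => Real.exp (b x) * deriv b x) r) / P r := by ring
    rw [h4, h2, Real.exp_sub, hexpc r]
    have h5 : ((j:ℝ)+1) * avg j (fun x => Real.exp (b x)) r = P r := rfl
    rw [h5]
    have := (hPpos r).ne'
    field_simp
  have hc0 : c 0 = 0 := by
    have h1 := hc' 0
    rw [zero_mul] at h1
    have h2 : Real.exp (b 0 - c 0) = 1 := by
      have : k / 2 ≠ 0 := by positivity
      have h3 := (mul_eq_zero.1 h1.symm).resolve_left this
      linarith
    have h3 : b 0 - c 0 = 0 := by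
      rw [← Real.exp_zero] at h2
      exact Real.exp_injective h2
    linarith
  -- logarithmic variables
  let lq : ℝ → ℝ := fun r => c r / k - a r
  let ly : ℝ → ℝ := fun r => b r - c r
  have hlqc : Continuous lq := (hc.continuous.div_const k).sub ha.continuous
  have hlyc : Continuous ly := hb.continuous.sub hc.continuous
  have hlq0 : lq 0 = 0 := by simp [lq, hc0, ha0]
  have hly0 : ly 0 = 0 := by simp [ly, hc0, hb0]
  let Q : ℝ → ℝ := fun r => Real.exp (lq r)
  let Y : ℝ → ℝ := fun r => Real.exp (ly r)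
  have hqq : ∀ r, lq r ≤ 2 → qq k (a r) (LA j b r) = Q r := by
    intro r hr
    show Real.exp (chi (lq r)) = Real.exp (lq r)
    rw [chi_eq hr]
  have hyy : ∀ r, ly r ≤ 2 → yy (b r) (LA j b r) = Y r := by
    intro r hr
    show Real.exp (chi (ly r)) = Real.exp (ly r)
    rw [chi_eq hr]
  -- derivatives where unclamped
  have hda' : ∀ r, lq r ≤ 2 → HasDerivAt a (Q r / 2) r := by
    intro r hr
    have := hda r
    rw [hqq r hr] at this
    exact this
  have hdb' : ∀ r, 0 ≤ r → lq r ≤ 2 → ly r ≤ 2 →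
      HasDerivAt b (Q r / 2 + (k + 3) / 2 * (Q r * (2 * Y r - 1) / (k + 2 * r * Q r))) r := by
    intro r hr0 hr hr2
    have := hdb r
    rw [hqq r hr, hyy r hr2] at this
    unfold F2 at this
    rw [mr_eq hr0] at this
    exact this
  -- the a priori estimate on good intervals
  have hgood : ∀ R, (∀ r ∈ Icc 0 R, lq r ≤ 2 ∧ ly r ≤ 2) → ∀ r ∈ Icc 0 R, Q r ≤ 1 ∧ Y r ≤ 7/2 := by
    intro R hR
    apply apriori hk (Q := Q) (Y := Y) (a := a) (by fun_prop) (by fun_prop) ha.continuous
      (fun r => Real.exp_pos _) (fun r => Real.exp_pos _) (by simp [Q, hlq0]) (by simp [Y, hly0])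
    · intro r hr
      have hg := hR r ⟨hr.1.le, hr.2.le⟩
      have h1 : HasDerivAt lq (deriv c r / k - Q r / 2) r :=
        ((hcd r).hasDerivAt.div_const k).sub (hda' r hg.1)
      refine h1.exp.congr_deriv ?_
      have h2 : r * deriv c r = k / 2 * (Y r - 1) := hc' r
      have hr0 : r ≠ 0 := hr.1.ne'
      have h3 : deriv c r = k / 2 * (Y r - 1) / r := by
        rw [← h2]; field_simp
      rw [h3]
      show Q r * _ = _
      field_simp
    · intro r hr
      have hg := hR r ⟨hr.1.le, hr.2.le⟩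
      have h1 : HasDerivAt ly (Q r / 2 + (k + 3) / 2 * (Q r * (2 * Y r - 1) / (k + 2 * r * Q r))
          - deriv c r) r :=
        (hdb' r hr.1.le hg.1 hg.2).sub (hcd r).hasDerivAt
      refine h1.exp.congr_deriv ?_
      have h2 : r * deriv c r = k / 2 * (Y r - 1) := hc' r
      have hr0 : r ≠ 0 := hr.1.ne'
      have h3 : deriv c r = k / 2 * (Y r - 1) / r := by
        rw [← h2]; field_simp
      rw [h3]
      show Y r * _ = _
      have hQ : 0 < Q r := Real.exp_pos _
      have hrpos : 0 < r := hr.1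
      have hden : k + 2 * r * Q r ≠ 0 := by positivity
      have hden2 : k + 2 * (r * Q r) ≠ 0 := by positivity
      unfold Dl
      field_simp
      ring
    · intro r hr
      exact hda' r (hR r ⟨hr.1.le, hr.2.le⟩).1
  -- the clamps are inactive on [0,∞)
  have hall : ∀ r, 0 ≤ r → lq r < 2 ∧ ly r < 2 := by
    by_contra hcon
    push Not at hcon
    obtain ⟨r1, hr1, hbad⟩ := hcon
    have hBcl : IsCompact (Icc 0 r1 ∩ ({r | 2 ≤ lq r} ∪ {r | 2 ≤ ly r})) :=
      isCompact_Icc.inter_right ((isClosed_le continuous_const hlqc).union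
        (isClosed_le continuous_const hlyc))
    have hne : (Icc 0 r1 ∩ ({r | 2 ≤ lq r} ∪ {r | 2 ≤ ly r})).Nonempty := by
      refine ⟨r1, ⟨hr1, le_rfl⟩, ?_⟩
      rcases lt_or_ge (lq r1) 2 with h | h
      · exact Or.inr (hbad h)
      · exact Or.inl h
    set rs := sInf (Icc 0 r1 ∩ ({r | 2 ≤ lq r} ∪ {r | 2 ≤ ly r})) with hrs
    have hmem : rs ∈ Icc 0 r1 ∩ ({r | 2 ≤ lq r} ∪ {r | 2 ≤ ly r}) := hBcl.sInf_mem hne
    have hrs0 : 0 < rs := by
      rcases lt_or_eq_of_le hmem.1.1 with h | h
      · exact h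
      · exfalso
        rcases hmem.2 with h2 | h2
        · have h3 : 2 ≤ lq rs := h2
          rw [← h, hlq0] at h3
          linarith
        · have h3 : 2 ≤ ly rs := h2
          rw [← h, hly0] at h3
          linarith
    have hbelow : ∀ r ∈ Ico 0 rs, lq r < 2 ∧ ly r < 2 := by
      intro r hr
      by_contra hc2
      have hrm : r ∈ Icc 0 r1 ∩ ({r | 2 ≤ lq r} ∪ {r | 2 ≤ ly r}) := by
        refine ⟨⟨hr.1, le_trans hr.2.le hmem.1.2⟩, ?_⟩
        rcases lt_or_ge (lq r) 2 with h | h
        · right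
          by_contra h4
          exact hc2 ⟨h, not_le.1 h4⟩
        · exact Or.inl h
      have := csInf_le hBcl.bddBelow hrm
      linarith [hr.2]
    have h1 := nonneg_on_Icc (g := fun r => 2 - lq r) (continuous_const.sub hlqc) hrs0
      (fun r hr => by have := (hbelow r hr).1; linarith)
    have h2 := nonneg_on_Icc (g := fun r => 2 - ly r) (continuous_const.sub hlyc) hrs0
      (fun r hr => by have := (hbelow r hr).2; linarith)
    have h3 := hgood rs (fun r hr => ⟨by have := h1 r hr; linarith, by have := h2 r hr; linarith⟩)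
      rs ⟨hrs0.le, le_rfl⟩
    rcases hmem.2 with h | h
    · have h4 : 2 ≤ lq rs := h
      have h5 : Real.exp (lq rs) ≤ 1 := h3.1
      have h6 : lq rs ≤ 0 := by
        rw [← Real.exp_zero] at h5
        exact Real.exp_le_exp.1 h5
      linarith
    · have h4 : 2 ≤ ly rs := h
      have h5 : Real.exp (ly rs) ≤ 7/2 := h3.2
      have h6 := Real.exp_le_exp.2 h4
      have h7 := exp_two_gt
      linarith
  refine ⟨a, b, c, ha, hb, hc, ha0, ?_, ?_, hc'⟩
  · intro r hr
    exact hda' r (hall r hr).1.le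
  · intro r hr
    exact hdb' r hr (hall r hr).1.le (hall r hr).2.le

/-- The radial profile. -/
theorem exists_profile (k : ℕ) (hk : 9 ≤ k) : ∃ f : ℝ → ℝ,
    ContDiff ℝ ∞ f ∧
    (∀ t, 0 ≤ t → 0 < f t ∧ 0 < deriv f t ∧ 0 < deriv f t + 2 * t * deriv (deriv f) t) ∧
    (∀ t, 0 < t →
      deriv (fun t => (2 * deriv f t) ^ (k-1) * (2 * deriv f t + 4 * t * deriv (deriv f) t)) t *
        (f t * (k * f t + 4 * t * deriv f t)) =
      ((2 * deriv f t) ^ (k-1) * (2 * deriv f t + 4 * t * deriv (deriv f) t)) *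
        (deriv f t * (k * f t + 4 * t * deriv f t) +
          (k+3) * f t * (deriv f t + 4 * t * deriv (deriv f) t))) := by
  obtain ⟨j, rfl⟩ : ∃ j, k = j + 1 := ⟨k - 1, by omega⟩
  have hj : 8 ≤ j := by omega
  obtain ⟨a, b, c, ha, hb, hc, ha0, hda, hdb, hc'⟩ := unclamped_exists j hj
  have hcast : ((j + 1 : ℕ) : ℝ) = (j:ℝ) + 1 := by push_cast; ring
  rw [hcast]
  set κ : ℝ := (j:ℝ)+1 with hκ
  have hκ0 : 0 < κ := by positivity
  let f : ℝ → ℝ := fun t => Real.exp (a t)
  let p : ℝ → ℝ := fun t => Real.exp (c t / κ)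
  have hf : ContDiff ℝ ∞ f := ha.exp
  have hp : ContDiff ℝ ∞ p := (hc.div_const κ).exp
  have hcd : Differentiable ℝ c := hc.differentiable (by norm_num)
  have hf1 : ∀ t, 0 ≤ t → HasDerivAt f (p t / 2) t := by
    intro t ht
    have h1 := (hda t ht).exp
    refine h1.congr_deriv ?_
    show Real.exp (a t) * (Real.exp (c t / κ - a t) / 2) = Real.exp (c t / κ) / 2
    rw [Real.exp_sub]
    have := (Real.exp_pos (a t)).ne'
    field_simp
  have hp1 : ∀ t, HasDerivAt p (p t * (deriv c t / κ)) t := by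
    intro t
    exact ((hcd t).hasDerivAt.div_const κ).exp
  have hf1' : ∀ t, 0 ≤ t → deriv f t = p t / 2 := fun t ht => (hf1 t ht).deriv
  -- second derivative on [0,∞)
  have hf2' : ∀ t, 0 ≤ t → deriv (deriv f) t = p t * (deriv c t / κ) / 2 := by
    intro t ht
    have hder : HasDerivWithinAt (deriv f) (p t * (deriv c t / κ) / 2) (Ici 0) t := by
      have h1 : HasDerivWithinAt (fun t => p t / 2) (p t * (deriv c t / κ) / 2) (Ici 0) t :=
        ((hp1 t).div_const 2).hasDerivWithinAt
      exact h1.congr (fun x hx => hf1' x hx) (hf1' t ht)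
    have hdd : DifferentiableAt ℝ (deriv f) t := by
      have h2 : ContDiff ℝ ∞ (deriv f) := (contDiff_infty_iff_deriv.1 hf).2
      exact (h2.differentiable (by norm_num)) t
    have h3 := hdd.hasDerivAt.hasDerivWithinAt (s := Ici 0)
    exact (uniqueDiffWithinAt_Ici 0 |> fun _ =>
      (uniqueDiffOn_Ici (0:ℝ) t ht).eq_deriv _ h3 hder)
  have hY : ∀ t, 0 ≤ t → deriv f t + 2 * t * deriv (deriv f) t =
      p t * Real.exp (b t - c t) / 2 := by
    intro t ht
    rw [hf1' t ht, hf2' t ht]
    have h1 : t * deriv c t = κ / 2 * (Real.exp (b t - c t) - 1) := hc' t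
    have h2 : p t / 2 + 2 * t * (p t * (deriv c t / κ) / 2) =
      p t / 2 + p t * (t * deriv c t) / κ := by ring
    rw [h2, h1]
    field_simp
    ring
  have hY2 : ∀ t, 0 ≤ t → deriv f t + 4 * t * deriv (deriv f) t =
      p t * (2 * Real.exp (b t - c t) - 1) / 2 := by
    intro t ht
    have h1 := hY t ht
    have h2 := hf1' t ht
    linarith
  have hψ : ∀ t, 0 ≤ t → (2 * deriv f t) ^ j * (2 * deriv f t + 4 * t * deriv (deriv f) t) =
      Real.exp (b t) := by
    intro t ht
    have h1 : 2 * deriv f t + 4 * t * deriv (deriv f) t = p t * Real.exp (b t - c t) := by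
      have := hY t ht
      linarith
    have h2 : 2 * deriv f t = p t := by
      have := hf1' t ht
      linarith
    rw [h1, h2, ← mul_assoc, ← pow_succ]
    have h3 : p t ^ (j+1) = Real.exp (c t) := by
      show Real.exp (c t / κ) ^ (j+1) = _
      rw [← Real.exp_nat_mul]
      congr 1
      push_cast
      rw [← hκ]
      field_simp
    rw [h3, ← Real.exp_add]
    congr 1
    ring
  refine ⟨f, hf, ?_, ?_⟩
  · intro t ht
    refine ⟨Real.exp_pos _, ?_, ?_⟩
    · rw [hf1' t ht]
      have : 0 < p t := Real.exp_pos _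
      linarith
    · rw [hY t ht]
      have h1 : 0 < p t := Real.exp_pos _
      have h2 := Real.exp_pos (b t - c t)
      positivity
  · intro t ht
    simp only [Nat.add_sub_cancel]
    have hder : HasDerivAt (fun t => (2 * deriv f t) ^ j *
        (2 * deriv f t + 4 * t * deriv (deriv f) t))
        (Real.exp (b t) * (Real.exp (c t / κ - a t) / 2 + (κ + 3) / 2 *
      (Real.exp (c t / κ - a t) * (2 * Real.exp (b t - c t) - 1) /
        (κ + 2 * t * Real.exp (c t / κ - a t))))) t := by
      have h1 := (hdb t ht.le).exp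
      apply h1.congr_of_eventuallyEq
      filter_upwards [Ioi_mem_nhds ht] with x hx
      exact hψ x (le_of_lt hx)
    rw [hder.deriv, hψ t ht.le, hY2 t ht.le, hf1' t ht.le]
    have hQ : 0 < Real.exp (c t / κ - a t) := Real.exp_pos _
    have hpQ : p t = Real.exp (c t / κ - a t) * f t := by
      show Real.exp (c t / κ) = Real.exp (c t / κ - a t) * Real.exp (a t)
      rw [← Real.exp_add]
      congr 1
      ring
    rw [hpQ]
    set q := Real.exp (c t / κ - a t)
    set y := Real.exp (b t - c t)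
    have hfpos : 0 < f t := Real.exp_pos _
    have hden : κ + 2 * t * q ≠ 0 := by positivity
    field_simp
    ring

end Vale.Agent.P252
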