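import Vale.Agent.P252.Calc
import Vale.Agent.P252.Profile

open scoped ContDiff

namespace Vale.Agent.P252

theorem entire_counterexample (n : ℕ) (hn : 10 ≤ n) :
    ∃ u : (Fin n → ℝ) → ℝ, ContDiff ℝ ∞ u ∧
      (∀ x, (hess u x).PosDef) ∧ (∀ x, AffineMaximalAt u x) ∧
      ¬ ∃ (A : Matrix (Fin n) (Fin n) ℝ) (b : Fin n → ℝ) (c : ℝ),
        ∀ x, u x = (1/2) * (x ⬝ᵥ A.mulVec x) + b ⬝ᵥ x + c := by
  obtain ⟨k, rfl⟩ : ∃ k, n = k + 1 := ⟨n - 1, by omega⟩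
  have hk : 9 ≤ k := by omega
  obtain ⟨f, hf, hpos, hode⟩ := exists_profile k hk
  exact main_of_profile k hk f hf hpos hode

end Vale.Agent.P252
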