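import Vale.Agent.P252.Avg

open MeasureTheory Set Filter Topology intervalIntegral
open scoped BoundedContinuousFunction NNReal

namespace Vale.Agent.P252

lemma avg_mono (j : ℕ) {h g : ℝ → ℝ} (hh : Continuous h) (hg : Continuous g) (r : ℝ)
    (hle : ∀ s ∈ Icc (0:ℝ) 1, h (r * s^2) ≤ g (r * s^2)) : avg j h r ≤ avg j g r := by
  unfold avg
  apply intervalIntegral.integral_mono_on zero_le_one
  · exact (by fun_prop : Continuous fun s => s^j * h (r*s^2)).intervalIntegrable _ _
  · exact (by fun_prop : Continuous fun s => s^j * g (r*s^2)).intervalIntegrable _ _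
  · intro s hs
    exact mul_le_mul_of_nonneg_left (hle s hs) (pow_nonneg hs.1 j)

lemma avg_const_mul (j : ℕ) (h : ℝ → ℝ) (c r : ℝ) :
    avg j (fun x => c * h x) r = c * avg j h r := by
  unfold avg
  rw [← intervalIntegral.integral_const_mul]
  congr 1
  funext s
  ring

lemma avg_one (j : ℕ) (r : ℝ) : ((j:ℝ)+1) * avg j (fun _ => 1) r = 1 := by
  unfold avg
  simp only [mul_one, integral_pow, one_pow, ne_eq, Nat.succ_ne_zero, not_false_eq_true,
    zero_pow, sub_zero]
  field_simp

lemma avg_exp_pos (j : ℕ) {b : ℝ → ℝ} (hb : Continuous b) (r : ℝ) :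
    0 < ((j:ℝ)+1) * avg j (fun x => Real.exp (b x)) r := by
  have hc : Continuous fun s : ℝ => b (r * s^2) := by fun_prop
  obtain ⟨C, hC⟩ := (isCompact_Icc (a := (0:ℝ)) (b := 1)).exists_bound_of_continuousOn
    hc.continuousOn
  have h1 : avg j (fun _ => Real.exp (-C) * 1) r ≤ avg j (fun x => Real.exp (b x)) r := by
    apply avg_mono j continuous_const (by fun_prop)
    intro s hs
    rw [mul_one]
    apply Real.exp_le_exp.2
    have := hC s hs
    rw [Real.norm_eq_abs] at this
    exact (abs_le.1 this).1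
  rw [avg_const_mul j (fun _ => 1)] at h1
  have h2 := avg_one j r
  have h3 : 0 < (j:ℝ)+1 := by positivity
  have h4 : 0 < Real.exp (-C) := Real.exp_pos _
  calc 0 < Real.exp (-C) * (((j:ℝ)+1) * avg j (fun _ => 1) r) := by rw [h2]; simpa using h4
    _ = ((j:ℝ)+1) * (Real.exp (-C) * avg j (fun _ => 1) r) := by ring
    _ ≤ _ := mul_le_mul_of_nonneg_left h1 h3.le

/-- logarithm of the average of `exp b`. -/
noncomputable def LA (j : ℕ) (b : ℝ → ℝ) (r : ℝ) : ℝ :=
  Real.log (((j:ℝ)+1) * avg j (fun x => Real.exp (b x)) r)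

lemma LA_continuous (j : ℕ) {b : ℝ → ℝ} (hb : Continuous b) : Continuous (LA j b) := by
  unfold LA
  apply Continuous.log
  · exact continuous_const.mul (avg_continuous j (by fun_prop))
  · intro r
    exact (avg_exp_pos j hb r).ne'

lemma LA_le (j : ℕ) {b b' : ℝ → ℝ} (hb : Continuous b) (hb' : Continuous b') (r η : ℝ)
    (h : ∀ s ∈ Icc (0:ℝ) 1, b (r * s^2) ≤ b' (r * s^2) + η) : LA j b r ≤ LA j b' r + η := by
  unfold LA
  have hp := avg_exp_pos j hb r
  have hp' := avg_exp_pos j hb' r
  rw [← Real.log_exp η, ← Real.log_mul hp'.ne' (Real.exp_pos η).ne']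
  apply Real.log_le_log hp
  have h1 : avg j (fun x => Real.exp (b x)) r ≤ avg j (fun x => Real.exp η * Real.exp (b' x)) r := by
    apply avg_mono j (by fun_prop) (by fun_prop)
    intro s hs
    rw [← Real.exp_add]
    apply Real.exp_le_exp.2
    linarith [h s hs]
  rw [avg_const_mul] at h1
  have h3 : 0 < (j:ℝ)+1 := by positivity
  calc ((j:ℝ)+1) * avg j (fun x => Real.exp (b x)) r
      ≤ ((j:ℝ)+1) * (Real.exp η * avg j (fun x => Real.exp (b' x)) r) :=
        mul_le_mul_of_nonneg_left h1 h3.le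
    _ = _ := by ring

lemma LA_lip (j : ℕ) {b b' : ℝ → ℝ} (hb : Continuous b) (hb' : Continuous b') (r η : ℝ)
    (h : ∀ s ∈ Icc (0:ℝ) 1, |b (r * s^2) - b' (r * s^2)| ≤ η) : |LA j b r - LA j b' r| ≤ η := by
  rw [abs_le]
  constructor
  · have := LA_le j hb' hb r η (fun s hs => by
      have := (abs_le.1 (h s hs)).1
      linarith)
    linarith
  · have := LA_le j hb hb' r η (fun s hs => by
      have := (abs_le.1 (h s hs)).2
      linarith)
    linarith

theorem volterra_exists (j : ℕ) (Φ : ℝ → ℝ → ℝ → ℝ → ℝ × ℝ)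
    (hΦ : Continuous fun p : ℝ × ℝ × ℝ × ℝ => Φ p.1 p.2.1 p.2.2.1 p.2.2.2)
    (C : ℝ) (hC : ∀ r a b c, ‖Φ r a b c‖ ≤ C) (L : ℝ) (hL : 0 < L)
    (hLip : ∀ r a b c a' b' c' η, |a - a'| ≤ η → |b - b'| ≤ η → |c - c'| ≤ η →
      ‖Φ r a b c - Φ r a' b' c'‖ ≤ L * η) :
    ∃ y : ℝ → ℝ × ℝ, y 0 = 0 ∧
      ∀ r, HasDerivAt y (Φ r (y r).1 (y r).2 (LA j (fun x => (y x).2) r)) r := by
  have hC0 : 0 ≤ C := le_trans (norm_nonneg _) (hC 0 0 0 0)
  set lam : ℝ := 2 * L with hlam
  have hlam0 : 0 < lam := by positivity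
  -- the unweighted function
  let Y : (ℝ →ᵇ ℝ × ℝ) → ℝ → ℝ × ℝ := fun z r => Real.cosh (lam * r) • z r
  have hYc : ∀ z, Continuous (Y z) := fun z => by
    have : Continuous fun r : ℝ => Real.cosh (lam * r) := by fun_prop
    exact this.smul z.continuous
  let G : (ℝ →ᵇ ℝ × ℝ) → ℝ → ℝ × ℝ := fun z r =>
    Φ r (Y z r).1 (Y z r).2 (LA j (fun x => (Y z x).2) r)
  have hGc : ∀ z, Continuous (G z) := fun z => by
    have h1 : Continuous (fun r => (Y z r).1) := continuous_fst.comp (hYc z)
    have h2 : Continuous (fun r => (Y z r).2) := continuous_snd.comp (hYc z)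
    have h3 : Continuous (LA j (fun x => (Y z x).2)) := LA_continuous j h2
    exact hΦ.comp (continuous_id.prodMk (h1.prodMk (h2.prodMk h3)))
  have hGb : ∀ z r, ‖G z r‖ ≤ C := fun z r => hC _ _ _ _
  have hcosh : ∀ r : ℝ, 0 < Real.cosh (lam * r) := fun r => Real.cosh_pos _
  have habs : ∀ r : ℝ, |r| ≤ Real.cosh (lam * r) / lam := by
    intro r
    rw [le_div_iff₀ hlam0]
    have h1 : |lam * r| ≤ Real.sinh |lam * r| := Real.self_le_sinh_iff.2 (abs_nonneg _)
    have h2 : Real.sinh |lam * r| < Real.cosh |lam * r| := Real.sinh_lt_cosh _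
    rw [Real.cosh_abs] at h2
    have h4 : |lam * r| = lam * |r| := by rw [abs_mul, abs_of_pos hlam0]
    linarith
  let T : (ℝ →ᵇ ℝ × ℝ) → (ℝ →ᵇ ℝ × ℝ) := fun z =>
    BoundedContinuousFunction.ofNormedAddCommGroup
      (fun r => (Real.cosh (lam * r))⁻¹ • ∫ s in (0:ℝ)..r, G z s)
      (by
        have h1 : Continuous fun r : ℝ => (Real.cosh (lam * r))⁻¹ :=
          (by fun_prop : Continuous fun r : ℝ => Real.cosh (lam * r)).inv₀ fun r => (hcosh r).ne'
        have h2 : Continuous fun r : ℝ => ∫ s in (0:ℝ)..r, G z s :=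
          intervalIntegral.continuous_primitive (fun a b => (hGc z).intervalIntegrable a b) 0
        exact h1.smul h2)
      (C / lam)
      (by
        intro r
        rw [norm_smul, norm_inv, Real.norm_of_nonneg (hcosh r).le]
        have h1 : ‖∫ s in (0:ℝ)..r, G z s‖ ≤ C * |r - 0| :=
          intervalIntegral.norm_integral_le_of_norm_le_const (fun s _ => hGb z s)
        rw [sub_zero] at h1
        have h2 := habs r
        rw [inv_mul_le_iff₀ (hcosh r)]
        calc ‖∫ s in (0:ℝ)..r, G z s‖ ≤ C * |r| := h1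
          _ ≤ C * (Real.cosh (lam * r) / lam) := mul_le_mul_of_nonneg_left h2 hC0
          _ = Real.cosh (lam * r) * (C / lam) := by ring)
  have hTdef : ∀ z r, T z r = (Real.cosh (lam * r))⁻¹ • ∫ s in (0:ℝ)..r, G z s := fun z r => rfl
  -- pointwise Lipschitz estimate
  have hGlip : ∀ z z' r, ‖G z r - G z' r‖ ≤ L * (dist z z' * Real.cosh (lam * r)) := by
    intro z z' r
    have hpt : ∀ x, |x| ≤ |r| → ‖Y z x - Y z' x‖ ≤ dist z z' * Real.cosh (lam * r) := by
      intro x hx
      have h1 : Y z x - Y z' x = Real.cosh (lam * x) • (z x - z' x) := by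
        simp only [Y, smul_sub]
      rw [h1, norm_smul, Real.norm_of_nonneg (hcosh x).le, mul_comm]
      have h2 : ‖z x - z' x‖ ≤ dist z z' := by
        rw [← dist_eq_norm]
        exact BoundedContinuousFunction.dist_coe_le_dist x
      have h3 : Real.cosh (lam * x) ≤ Real.cosh (lam * r) := by
        rw [Real.cosh_le_cosh, abs_mul lam x, abs_mul lam r]
        exact mul_le_mul_of_nonneg_left hx (abs_nonneg _)
      exact mul_le_mul h2 h3 (hcosh x).le dist_nonneg
    have hfst : ∀ x, |x| ≤ |r| → |(Y z x).1 - (Y z' x).1| ≤ dist z z' * Real.cosh (lam * r) :=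
      fun x hx => le_trans (norm_fst_le (Y z x - Y z' x)) (hpt x hx)
    have hsnd : ∀ x, |x| ≤ |r| → |(Y z x).2 - (Y z' x).2| ≤ dist z z' * Real.cosh (lam * r) :=
      fun x hx => le_trans (norm_snd_le (Y z x - Y z' x)) (hpt x hx)
    apply hLip
    · exact hfst r le_rfl
    · exact hsnd r le_rfl
    · apply LA_lip j (continuous_snd.comp (hYc z)) (continuous_snd.comp (hYc z'))
      intro s hs
      apply hsnd
      rw [abs_mul, abs_of_nonneg (by positivity : (0:ℝ) ≤ s^2)]
      have : s^2 ≤ 1 := pow_le_one₀ hs.1 hs.2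
      calc |r| * s^2 ≤ |r| * 1 := mul_le_mul_of_nonneg_left this (abs_nonneg _)
        _ = |r| := mul_one _
  have hTlip : ∀ z z', dist (T z) (T z') ≤ (1/2) * dist z z' := by
    intro z z'
    rw [BoundedContinuousFunction.dist_le (by positivity)]
    intro r
    rw [dist_eq_norm, hTdef, hTdef, ← smul_sub, ← intervalIntegral.integral_sub
      ((hGc z).intervalIntegrable _ _) ((hGc z').intervalIntegrable _ _), norm_smul, norm_inv,
      Real.norm_of_nonneg (hcosh r).le]
    have h1 : ‖∫ s in (0:ℝ)..r, (G z s - G z' s)‖ ≤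
        |∫ s in (0:ℝ)..r, L * (dist z z' * Real.cosh (lam * s))| := by
      apply intervalIntegral.norm_integral_le_abs_of_norm_le
      · exact Filter.Eventually.of_forall fun s => hGlip z z' s
      · exact (by fun_prop : Continuous fun s : ℝ =>
          L * (dist z z' * Real.cosh (lam * s))).intervalIntegrable _ _
    have h2 : ∫ s in (0:ℝ)..r, L * (dist z z' * Real.cosh (lam * s)) =
        L * dist z z' * (Real.sinh (lam * r) / lam) := by
      have hder : ∀ s ∈ uIcc (0:ℝ) r, HasDerivAt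
          (fun s : ℝ => L * dist z z' * (Real.sinh (lam * s) / lam))
          (L * (dist z z' * Real.cosh (lam * s))) s := by
        intro s _
        have e1 : HasDerivAt (fun s : ℝ => lam * s) lam s := by
          simpa using (hasDerivAt_id s).const_mul lam
        have e2 := (e1.sinh.div_const lam).const_mul (L * dist z z')
        refine e2.congr_deriv ?_
        field_simp
      rw [intervalIntegral.integral_eq_sub_of_hasDerivAt hder
        ((by fun_prop : Continuous fun s : ℝ =>
          L * (dist z z' * Real.cosh (lam * s))).intervalIntegrable _ _)]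
      simp
    rw [h2] at h1
    rw [inv_mul_le_iff₀ (hcosh r)]
    refine le_trans h1 ?_
    rw [abs_mul, abs_of_nonneg (by positivity : 0 ≤ L * dist z z'), abs_div, abs_of_pos hlam0]
    have h3 : |Real.sinh (lam * r)| ≤ Real.cosh (lam * r) := by
      rw [Real.abs_sinh, ← Real.cosh_abs (lam * r)]
      exact (Real.sinh_lt_cosh _).le
    calc L * dist z z' * (|Real.sinh (lam * r)| / lam)
        ≤ L * dist z z' * (Real.cosh (lam * r) / lam) := by gcongr
      _ = Real.cosh (lam * r) * (1/2 * dist z z') := by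
        rw [hlam]; field_simp
  have hcontr : ContractingWith (1/2 : ℝ≥0) T := by
    constructor
    · norm_num
    · apply LipschitzWith.of_dist_le_mul
      intro z z'
      simpa using hTlip z z'
  let z := hcontr.fixedPoint
  have hz : T z = z := hcontr.fixedPoint_isFixedPt
  have hint : ∀ r, Y z r = ∫ s in (0:ℝ)..r, G z s := by
    intro r
    have h1 : z r = (Real.cosh (lam * r))⁻¹ • ∫ s in (0:ℝ)..r, G z s := by
      conv_lhs => rw [← hz]
      rfl
    show Real.cosh (lam * r) • z r = _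
    rw [h1, smul_smul, mul_inv_cancel₀ (hcosh r).ne', one_smul]
  refine ⟨Y z, ?_, ?_⟩
  · rw [hint 0]; simp
  · intro r
    have h1 : HasDerivAt (fun r => ∫ s in (0:ℝ)..r, G z s) (G z r) r :=
      intervalIntegral.integral_hasDerivAt_right ((hGc z).intervalIntegrable _ _)
        ((hGc z).stronglyMeasurableAtFilter _ _) (hGc z).continuousAt
    have h2 : Y z = fun r => ∫ s in (0:ℝ)..r, G z s := funext hint
    rw [← h2] at h1
    exact h1

end Vale.Agent.P252
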